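/-
P235-M, reduction (helper551).  The interface between the random subword theorem (`MStar f`) and
planar graphs (`Sweep`).
-/
import Vale.Agent.P235.Defs
import Vale.Agent.P235.R2.H549.Gamma

namespace Vale.Agent.P235.Red

open Equiv VPBruhat

/-- The permutations of `Fin T` which map `{x | x < a}` onto itself for all `a ∈ H`. -/
def Fixes {T : ℕ} (H : Set ℕ) (v : Perm (Fin T)) : Prop :=
  ∀ a ∈ H, ∀ x : Fin T, (v x : ℕ) < a ↔ (x : ℕ) < a

/-- the product `v (i+m-1) * ⋯ * v (i+1) * v i` over the window of the steps `i, …, i+m-1` -/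
def win {T : ℕ} (v : ℕ → Perm (Fin T)) (i : ℕ) : ℕ → Perm (Fin T)
  | 0 => 1
  | m + 1 => v (i + m) * win v i m

/-- **(M*_f)**: for every word of `N` steps (step `i` allows the Young subgroup `Fixes (H i)`) there
is a finite random configuration which serves every window at every level up to the factor
`f N`. -/
def MStar (f : ℕ → ℝ) : Prop :=
  ∀ (N T : ℕ) (H : ℕ → Set ℕ), ∃ (Ω : Type) (_ : Fintype Ω) (p : Ω → ℝ)
    (v : Ω → ℕ → Perm (Fin T)),
    (∀ ω, 0 ≤ p ω) ∧ ∑ ω, p ω = 1 ∧ (∀ ω i, Fixes (H i) (v ω i)) ∧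
    ∀ i m a, i + m ≤ N → ∀ w : ℕ → Perm (Fin T), (∀ j, Fixes (H j) (w j)) →
      (flux a (win w i m) : ℝ) ≤ f N * ∑ ω, p ω * (flux a (win (v ω) i m) : ℝ)

/-- `P 0, …, P N` are monotone paths of `G` (for the height `h`) from one bottom vertex to one top
vertex; they cover all edges; every vertex lies on a contiguous range of the paths. -/
structure Sweep {V : Type} (G : SimpleGraph V) (h : V → ℝ) (N : ℕ) (P : ℕ → Set V) : Prop where
  every : ∀ v, ∃ i ≤ N, v ∈ P i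
  cover : ∀ u v, G.Adj u v → h u < h v → ∃ i ≤ N, u ∈ P i ∧ v ∈ P i ∧
    ∀ w ∈ P i, ¬ (h u < h w ∧ h w < h v)
  inj : ∀ i ≤ N, ∀ u ∈ P i, ∀ v ∈ P i, h u = h v → u = v
  conn : ∀ i ≤ N, ∀ u ∈ P i, ∀ v ∈ P i, h u < h v → (∀ w ∈ P i, ¬ (h u < h w ∧ h w < h v)) →
    G.Adj u v
  bot : ∃ s, (∀ i ≤ N, s ∈ P i) ∧ ∀ v, h s ≤ h v
  top : ∃ t, (∀ i ≤ N, t ∈ P i) ∧ ∀ v, h v ≤ h t
  convex : ∀ v i j k, i ≤ j → j ≤ k → k ≤ N → v ∈ P i → v ∈ P k → v ∈ P j

end Vale.Agent.P235.Red
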