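/-
P235-M, reduction (helper551).  The literal rows.
-/
import Vale.Agent.P235.R2.RED.Defs
import Vale.Agent.P235.H536.PlaneDefs

namespace Vale.Agent.P235.Red

open Equiv VPBruhat

/-- row A: sweeps with integral heights. -/
def RowA : Prop :=
  ∀ (f : ℕ → ℝ), MStar f → ∀ (V : Type) [Finite V] (G : SimpleGraph V) (ℓ : Sym2 V → ℝ)
    (h : V → ℕ) (N : ℕ) (P : ℕ → Set V), 0 ≤ f N → Sweep G (fun v => (h v : ℝ)) N P →
    (∀ u v, G.Adj u v → ℓ s(u, v) = |(h u : ℝ) - h v|) →
    EmbedsL1 (pathDist G ℓ) (1 + 2 * f N)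

/-- row B: sweeps with real heights. -/
def RowB : Prop :=
  ∀ (f : ℕ → ℝ), MStar f → ∀ (V : Type) [Finite V] (G : SimpleGraph V) (ℓ : Sym2 V → ℝ)
    (h : V → ℝ) (N : ℕ) (P : ℕ → Set V), 0 ≤ f N → Sweep G h N P →
    (∀ u v, G.Adj u v → ℓ s(u, v) = |h u - h v|) → (∀ u v, G.Adj u v → 0 < ℓ s(u, v)) →
    EmbedsL1 (pathDist G ℓ) (2 + 4 * f N)

/-- `h` has no equal values on edges, `s` is the only vertex without lower neighbour, `t` the only
vertex without higher neighbour -/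
structure UpDown {V : Type} (G : SimpleGraph V) (h : V → ℝ) (s t : V) : Prop where
  ne : ∀ u v, G.Adj u v → h u ≠ h v
  low : ∀ v, v ≠ s → ∃ u, G.Adj v u ∧ h u < h v
  high : ∀ v, v ≠ t → ∃ u, G.Adj v u ∧ h v < h u
  lt : h s < h t

/-- row C1: the angle count. `up d` means `h d.fst < h d.snd`. At every vertex other than `s`, `t`
exactly one up-dart is followed by a down-dart in the rotation, and exactly one down-dart by an
up-dart; the same along every face. -/
def RowC1 : Prop :=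
  ∀ (V : Type) [Finite V] (G : SimpleGraph V) (σ : Equiv.Perm G.Dart) (h : V → ℝ) (s t : V),
    PlaneMap G σ → UpDown G h s t →
    (∀ d e : G.Dart, d.fst = e.fst → h d.fst < h d.snd → h (σ d).snd < h (σ d).fst →
      h e.fst < h e.snd → h (σ e).snd < h (σ e).fst → d = e) ∧
    (∀ d e : G.Dart, d.fst = e.fst → h d.snd < h d.fst → h (σ d).fst < h (σ d).snd →
      h e.snd < h e.fst → h (σ e).fst < h (σ e).snd → d = e) ∧
    (∀ d e : G.Dart, (faceNext σ).SameCycle d e → h d.fst < h d.snd →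
      h (faceNext σ d).snd < h (faceNext σ d).fst → h e.fst < h e.snd →
      h (faceNext σ e).snd < h (faceNext σ e).fst → d = e) ∧
    (∀ d e : G.Dart, (faceNext σ).SameCycle d e → h d.snd < h d.fst →
      h (faceNext σ d).fst < h (faceNext σ d).snd → h e.snd < h e.fst →
      h (faceNext σ e).fst < h (faceNext σ e).snd → d = e)

/-- row C: a plane map with `s`, `t` on one face has a sweep with `|V|²` steps (one step per face,
then constant). -/
def RowC : Prop :=
  ∀ (V : Type) [Finite V] (G : SimpleGraph V) (σ : Equiv.Perm G.Dart) (d₀ : G.Dart) (h : V → ℝ)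
    (s t : V), G.Connected → PlaneMap G σ → s ∈ onFace σ d₀ → t ∈ onFace σ d₀ → UpDown G h s t →
    ∃ P : ℕ → Set V, Sweep G h (Nat.card V ^ 2) P

/-- row F0: tight edges -/
def RowF0 : Prop :=
  ∀ (V : Type) [Finite V] (G : SimpleGraph V) (ℓ : Sym2 V → ℝ) (s t : V), G.Connected → s ≠ t →
    (∀ e ∈ G.edgeSet, 0 < ℓ e) →
    (∀ u v, G.Adj u v → pathDist G ℓ s u + ℓ s(u, v) + pathDist G ℓ v t = pathDist G ℓ s t ∨
      pathDist G ℓ s v + ℓ s(u, v) + pathDist G ℓ u t = pathDist G ℓ s t) →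
    UpDown G (pathDist G ℓ s) s t ∧
      ∀ u v, G.Adj u v → ℓ s(u, v) = |pathDist G ℓ s u - pathDist G ℓ s v|

/-- row F: the final form for plane graphs in which all edges lie on shortest paths from `s` to
`t`, `s` and `t` on one face. -/
def RowF (f : ℕ → ℝ) : Prop :=
  ∀ (V : Type) [Finite V] (G : SimpleGraph V) (σ : Equiv.Perm G.Dart) (d₀ : G.Dart)
    (ℓ : Sym2 V → ℝ) (s t : V), G.Connected → PlaneMap G σ → s ∈ onFace σ d₀ → t ∈ onFace σ d₀ →
    (∀ e ∈ G.edgeSet, 0 < ℓ e) →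
    (∀ u v, G.Adj u v → pathDist G ℓ s u + ℓ s(u, v) + pathDist G ℓ v t = pathDist G ℓ s t ∨
      pathDist G ℓ s v + ℓ s(u, v) + pathDist G ℓ u t = pathDist G ℓ s t) →
    EmbedsL1 (pathDist G ℓ) (2 + 4 * f (Nat.card V ^ 2))

end Vale.Agent.P235.Red
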