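/-
P235-M, reduction, row A, part 1 (helper551): permutations, labels below a height.
-/
import Vale.Agent.P235.R2.RED.Defs

namespace Vale.Agent.P235.Red

open Equiv VPBruhat Finset

section win
variable {T : ℕ}

theorem win_add (v : ℕ → Perm (Fin T)) (i m m' : ℕ) :
    win v i (m + m') = win v (i + m) m' * win v i m := by
  induction m' with
  | zero => simp [win]
  | succ m' ih =>
    rw [← add_assoc, win, ih, win, mul_assoc, add_assoc]

theorem win_eq (v : ℕ → Perm (Fin T)) (i m : ℕ) :
    win v 0 (i + m) = win v i m * win v 0 i := by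
  rw [win_add, zero_add]

/-- as many positions go up through level `a` as go down -/
theorem flux_down (a : ℕ) (v : Perm (Fin T)) :
    (univ.filter fun x : Fin T => a ≤ (x : ℕ) ∧ (v x : ℕ) < a).card = flux a v := by
  unfold flux
  have h1 : (univ.filter fun x : Fin T => (x : ℕ) < a).card =
      (univ.filter fun x : Fin T => (v x : ℕ) < a).card := by
    refine (Finset.card_bij (fun x _ => v x) ?_ (fun _ _ _ _ h => v.injective h) ?_).symm
    · intro x hx; simpa using hx
    · intro y hy; exact ⟨v.symm y, by simpa using hy, by simp⟩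
  have h2 := Finset.card_filter_add_card_filter_not (s := univ.filter fun x : Fin T => (x : ℕ) < a)
    (fun x => (v x : ℕ) < a)
  have h3 := Finset.card_filter_add_card_filter_not (s := univ.filter fun x : Fin T => (v x : ℕ) < a)
    (fun x => (x : ℕ) < a)
  rw [Finset.filter_filter, Finset.filter_filter] at h2 h3
  have e1 : (univ.filter fun x : Fin T => (x : ℕ) < a ∧ (v x : ℕ) < a) =
      univ.filter fun x : Fin T => (v x : ℕ) < a ∧ (x : ℕ) < a := by
    ext x; simp [and_comm]
  have e2 : (univ.filter fun x : Fin T => (x : ℕ) < a ∧ ¬ (v x : ℕ) < a) =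
      univ.filter fun x : Fin T => (x : ℕ) < a ∧ a ≤ (v x : ℕ) := by
    ext x; simp [not_lt]
  have e3 : (univ.filter fun x : Fin T => (v x : ℕ) < a ∧ ¬ (x : ℕ) < a) =
      univ.filter fun x : Fin T => a ≤ (x : ℕ) ∧ (v x : ℕ) < a := by
    ext x; simp [not_lt, and_comm]
  rw [e2] at h2; rw [e3] at h3; rw [e1] at h2
  omega

/-- labels (= positions in column 0) below height `a` in column `i` -/
def lab (v : ℕ → Perm (Fin T)) (i a : ℕ) : Finset (Fin T) :=
  univ.filter fun y => (win v 0 i y : ℕ) < a

theorem mem_lab {v : ℕ → Perm (Fin T)} {i a : ℕ} {y : Fin T} :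
    y ∈ lab v i a ↔ (win v 0 i y : ℕ) < a := by simp [lab]

theorem lab_step {v : ℕ → Perm (Fin T)} {H : ℕ → Set ℕ} (hv : ∀ j, Fixes (H j) (v j)) {i a : ℕ}
    (ha : a ∈ H i) : lab v (i + 1) a = lab v i a := by
  ext y
  rw [mem_lab, mem_lab, win, zero_add, Perm.mul_apply]
  exact hv i a ha _

theorem lab_const {v : ℕ → Perm (Fin T)} {H : ℕ → Set ℕ} (hv : ∀ j, Fixes (H j) (v j)) {i a : ℕ} :
    ∀ m, (∀ j, i ≤ j → j < i + m → a ∈ H j) → lab v (i + m) a = lab v i a
  | 0, _ => rfl
  | m + 1, h => by
    rw [← add_assoc, lab_step hv (h (i + m) (by omega) (by omega)),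
      lab_const hv m (fun j h1 h2 => h j h1 (by omega))]

/-- size of the symmetric difference -/
noncomputable def dd (A B : Finset (Fin T)) : ℝ :=
  ∑ y, |(if y ∈ A then (1 : ℝ) else 0) - (if y ∈ B then (1 : ℝ) else 0)|

theorem dd_self (A : Finset (Fin T)) : dd A A = 0 := by simp [dd]

theorem dd_nonneg (A B : Finset (Fin T)) : 0 ≤ dd A B := Finset.sum_nonneg fun _ _ => abs_nonneg _

theorem dd_comm (A B : Finset (Fin T)) : dd A B = dd B A :=
  Finset.sum_congr rfl fun _ _ => abs_sub_comm _ _

theorem dd_tri (A B C : Finset (Fin T)) : dd A C ≤ dd A B + dd B C := by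
  unfold dd
  rw [← Finset.sum_add_distrib]
  exact Finset.sum_le_sum fun _ _ => abs_sub_le _ _ _

theorem dd_eq_card (A B : Finset (Fin T)) :
    dd A B = ((univ.filter fun y => y ∈ A ∧ y ∉ B).card : ℝ) +
      ((univ.filter fun y => y ∉ A ∧ y ∈ B).card : ℝ) := by
  unfold dd
  rw [Finset.card_filter, Finset.card_filter, Nat.cast_sum, Nat.cast_sum, ← Finset.sum_add_distrib]
  refine Finset.sum_congr rfl fun y _ => ?_
  by_cases h1 : y ∈ A <;> by_cases h2 : y ∈ B <;> simp [h1, h2]

theorem card_below (a : ℕ) (ha : a ≤ T) : (univ.filter fun x : Fin T => (x : ℕ) < a).card = a := by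
  rw [Fin.card_filter_val_lt, min_eq_right ha]

theorem card_lab (v : ℕ → Perm (Fin T)) (i : ℕ) {a : ℕ} (ha : a ≤ T) : (lab v i a).card = a := by
  refine (Finset.card_bij (t := univ.filter fun x : Fin T => (x : ℕ) < a)
    (fun x _ => win v 0 i x) ?_ (fun _ _ _ _ h => (win v 0 i).injective h) ?_).trans
    (card_below a ha)
  · intro x hx; simpa using mem_lab.1 hx
  · intro y hy; exact ⟨(win v 0 i).symm y, by rw [mem_lab]; simpa using hy, by simp⟩

theorem dd_lab_level (v : ℕ → Perm (Fin T)) (i : ℕ) {a b : ℕ} (ha : a ≤ T) (hb : b ≤ T) :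
    dd (lab v i a) (lab v i b) = |(a : ℝ) - b| := by
  wlog hab : a ≤ b generalizing a b with H
  · rw [dd_comm, abs_sub_comm]; exact H hb ha (le_of_not_ge hab)
  rw [dd_eq_card]
  have hsub : lab v i a ⊆ lab v i b := fun y hy => mem_lab.2 (lt_of_lt_of_le (mem_lab.1 hy) hab)
  have e1 : (univ.filter fun y => y ∈ lab v i a ∧ y ∉ lab v i b) = ∅ := by
    ext y; simp only [mem_filter, mem_univ, true_and, notMem_empty, iff_false, not_and, not_not]
    exact fun h => hsub h
  have e2 : (univ.filter fun y => y ∉ lab v i a ∧ y ∈ lab v i b) = lab v i b \ lab v i a := by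
    ext y; simp [and_comm]
  have hab' : (a : ℝ) ≤ b := by exact_mod_cast hab
  rw [e1, e2, Finset.card_sdiff_of_subset hsub, card_lab v i ha, card_lab v i hb, abs_sub_comm,
    abs_of_nonneg (by linarith)]
  push_cast [Nat.cast_sub hab]
  simp

theorem dd_lab_win (v : ℕ → Perm (Fin T)) (i m a : ℕ) :
    dd (lab v i a) (lab v (i + m) a) = 2 * (flux a (win v i m) : ℝ) := by
  rw [dd_eq_card]
  have e1 : (univ.filter fun y => y ∈ lab v i a ∧ y ∉ lab v (i + m) a).card =
      flux a (win v i m) := by
    unfold flux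
    refine Finset.card_bij (fun x _ => win v 0 i x) ?_
      (fun _ _ _ _ h => (win v 0 i).injective h) ?_
    · intro y hy
      simp only [mem_filter, mem_univ, true_and, mem_lab, not_lt, win_eq, Perm.mul_apply] at hy ⊢
      exact hy
    · intro y hy
      refine ⟨(win v 0 i).symm y, ?_, by simp⟩
      simp only [mem_filter, mem_univ, true_and, mem_lab, not_lt, win_eq, Perm.mul_apply,
        apply_symm_apply] at hy ⊢
      exact hy
  have e2 : (univ.filter fun y => y ∉ lab v i a ∧ y ∈ lab v (i + m) a).card =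
      flux a (win v i m) := by
    rw [← flux_down]
    refine Finset.card_bij (fun x _ => win v 0 i x) ?_
      (fun _ _ _ _ h => (win v 0 i).injective h) ?_
    · intro y hy
      simp only [mem_filter, mem_univ, true_and, mem_lab, not_lt, win_eq, Perm.mul_apply] at hy ⊢
      exact hy
    · intro y hy
      refine ⟨(win v 0 i).symm y, ?_, by simp⟩
      simp only [mem_filter, mem_univ, true_and, mem_lab, not_lt, win_eq, Perm.mul_apply,
        apply_symm_apply] at hy ⊢
      exact hy
  rw [e1, e2]; ring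

end win

/-- **Matching two patterns**: if `A` and `B` have the same number of elements below every `a ∈ H`
(and in total), there is a permutation in the Young subgroup which maps `A` to `B`. -/
theorem orderEmb_lt_iff {T : ℕ} (S : Finset (Fin T)) (a : ℕ) (i : Fin S.card) :
    ((S.orderEmbOfFin rfl i : Fin T) : ℕ) < a ↔ (i : ℕ) < (S.filter fun x : Fin T => (x : ℕ) < a).card := by
  classical
  set e := S.orderEmbOfFin rfl
  constructor
  · intro h
    have : (univ.filter fun j : Fin S.card => (j : ℕ) < i + 1).card ≤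
        (S.filter fun x : Fin T => (x : ℕ) < a).card := by
      refine Finset.card_le_card_of_injOn e ?_ (fun _ _ _ _ h => e.injective h)
      intro j hj
      simp only [coe_filter, mem_univ, true_and, Set.mem_ofPred_eq] at hj ⊢
      refine ⟨Finset.orderEmbOfFin_mem _ _ _, lt_of_le_of_lt ?_ h⟩
      have : j ≤ i := by rw [Fin.le_def]; omega
      have := e.monotone this
      rwa [Fin.le_def] at this
    rw [Fin.card_filter_val_lt, min_eq_right (by omega)] at this
    omega
  · intro h
    by_contra hcon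
    have : (S.filter fun x : Fin T => (x : ℕ) < a).card ≤
        (univ.filter fun j : Fin S.card => (j : ℕ) < i).card := by
      rw [← Finset.card_image_of_injective (univ.filter fun j : Fin S.card => (j : ℕ) < i)
        e.injective]
      refine Finset.card_le_card ?_
      intro x hx
      rw [mem_filter] at hx
      have hxr : x ∈ Set.range e := by
        rw [Finset.range_orderEmbOfFin]; exact hx.1
      obtain ⟨j, rfl⟩ := hxr
      refine mem_image.2 ⟨j, ?_, rfl⟩
      rw [mem_filter]
      refine ⟨mem_univ _, ?_⟩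
      by_contra hj
      have : i ≤ j := by rw [Fin.le_def]; omega
      have := e.monotone this
      rw [Fin.le_def] at this
      omega
    rw [Fin.card_filter_val_lt, min_eq_right (by omega)] at this
    omega

theorem exists_equiv {T : ℕ} (A B : Finset (Fin T)) (hc : A.card = B.card) :
    ∃ e : {x // x ∈ A} ≃ {x // x ∈ B}, ∀ a : ℕ,
      (A.filter fun x : Fin T => (x : ℕ) < a).card = (B.filter fun x : Fin T => (x : ℕ) < a).card →
      ∀ x : {x // x ∈ A}, ((e x : Fin T) : ℕ) < a ↔ ((x : Fin T) : ℕ) < a := by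
  classical
  refine ⟨((A.orderIsoOfFin rfl).symm.toEquiv.trans (finCongr hc)).trans
    (B.orderIsoOfFin rfl).toEquiv, ?_⟩
  intro a ha x
  obtain ⟨i, rfl⟩ := (A.orderIsoOfFin rfl).surjective x
  have h1 := orderEmb_lt_iff A a i
  have h2 := orderEmb_lt_iff B a (finCongr hc i)
  simp only [Equiv.trans_apply, OrderIso.coe_toEquiv, OrderIso.symm_apply_apply]
  rw [show (((B.orderIsoOfFin rfl) (finCongr hc i) : {x // x ∈ B}) : Fin T) =
    B.orderEmbOfFin rfl (finCongr hc i) from rfl, h2,
    show (((A.orderIsoOfFin rfl) i : {x // x ∈ A}) : Fin T) = A.orderEmbOfFin rfl i from rfl, h1,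
    ha]
  simp

theorem subtypeCongr_left {α : Type*} {p q : α → Prop} [DecidablePred p] [DecidablePred q]
    (e : {x // p x} ≃ {x // q x}) (f : {x // ¬ p x} ≃ {x // ¬ q x}) {x : α} (h : p x) :
    Equiv.subtypeCongr e f x = e ⟨x, h⟩ := by
  simp [Equiv.subtypeCongr, h]

theorem subtypeCongr_right {α : Type*} {p q : α → Prop} [DecidablePred p] [DecidablePred q]
    (e : {x // p x} ≃ {x // q x}) (f : {x // ¬ p x} ≃ {x // ¬ q x}) {x : α} (h : ¬ p x) :
    Equiv.subtypeCongr e f x = f ⟨x, h⟩ := by
  simp [Equiv.subtypeCongr, h]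

theorem exists_match {T : ℕ} (H : Set ℕ) (A B : Finset (Fin T)) (hc : A.card = B.card)
    (h : ∀ a ∈ H, (A.filter fun x : Fin T => (x : ℕ) < a).card = (B.filter fun x : Fin T => (x : ℕ) < a).card) :
    ∃ v : Perm (Fin T), Fixes H v ∧ ∀ x, x ∈ A ↔ v x ∈ B := by
  classical
  obtain ⟨e, he⟩ := exists_equiv A B hc
  have hc' : (Aᶜ).card = (Bᶜ).card := by rw [card_compl, card_compl, hc]
  obtain ⟨e', he'⟩ := exists_equiv Aᶜ Bᶜ hc'
  have h' : ∀ a ∈ H, ((Aᶜ).filter fun x : Fin T => (x : ℕ) < a).card =
      ((Bᶜ).filter fun x : Fin T => (x : ℕ) < a).card := by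
    intro a ha
    have hA := Finset.card_filter_add_card_filter_not (s := univ.filter fun x : Fin T => (x : ℕ) < a)
      (fun x => x ∈ A)
    have hB := Finset.card_filter_add_card_filter_not (s := univ.filter fun x : Fin T => (x : ℕ) < a)
      (fun x => x ∈ B)
    have eA : (univ.filter fun x : Fin T => (x : ℕ) < a).filter (fun x => x ∈ A) =
        A.filter fun x : Fin T => (x : ℕ) < a := by ext; simp [and_comm]
    have eB : (univ.filter fun x : Fin T => (x : ℕ) < a).filter (fun x => x ∈ B) =
        B.filter fun x : Fin T => (x : ℕ) < a := by ext; simp [and_comm]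
    have eA' : (univ.filter fun x : Fin T => (x : ℕ) < a).filter (fun x => x ∉ A) =
        (Aᶜ).filter fun x : Fin T => (x : ℕ) < a := by ext; simp [and_comm]
    have eB' : (univ.filter fun x : Fin T => (x : ℕ) < a).filter (fun x => x ∉ B) =
        (Bᶜ).filter fun x : Fin T => (x : ℕ) < a := by ext; simp [and_comm]
    rw [eA, eA'] at hA
    rw [eB, eB'] at hB
    have := h a ha
    omega
  let f : {x // ¬ x ∈ A} ≃ {x // ¬ x ∈ B} :=
    ((Equiv.subtypeEquivRight (p := fun x => ¬ x ∈ A) (q := fun x => x ∈ Aᶜ) (by simp)).trans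
      e').trans (Equiv.subtypeEquivRight (p := fun x => x ∈ Bᶜ) (q := fun x => ¬ x ∈ B) (by simp))
  have hf : ∀ a ∈ H, ∀ x : {x // ¬ x ∈ A}, ((f x : Fin T) : ℕ) < a ↔ ((x : Fin T) : ℕ) < a := by
    intro a ha x
    exact he' a (h' a ha) _
  refine ⟨Equiv.subtypeCongr e f, ?_, ?_⟩
  · intro a ha x
    by_cases hx : x ∈ A
    · rw [subtypeCongr_left e f hx]
      exact he a (h a ha) ⟨x, hx⟩
    · rw [subtypeCongr_right e f hx]
      exact hf a ha ⟨x, hx⟩
  · intro x
    by_cases hx : x ∈ A
    · rw [subtypeCongr_left e f hx]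
      exact ⟨fun _ => (e ⟨x, hx⟩).2, fun _ => hx⟩
    · rw [subtypeCongr_right e f hx]
      exact ⟨fun h => absurd h hx, fun h => absurd h (f ⟨x, hx⟩).2⟩

end Vale.Agent.P235.Red
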