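/-
P235-M, reduction, part 2 (helper551): bags on lines with integral heights.  The distance of two
points is realised by an allowed configuration.
-/
import Vale.Agent.P235.R2.RED.A1

namespace Vale.Agent.P235.Red

open Equiv VPBruhat Finset

/-- `|a - b|` for natural numbers -/
def nd (a b : ℕ) : ℕ := (a - b) + (b - a)

theorem nd_cast (a b : ℕ) : (nd a b : ℝ) = |(a : ℝ) - b| := by
  unfold nd
  rcases le_total a b with h | h
  · have h' : (a : ℝ) ≤ b := by exact_mod_cast h
    rw [Nat.sub_eq_zero_of_le h, zero_add, abs_of_nonpos (by linarith), Nat.cast_sub h]; ring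
  · have h' : (b : ℝ) ≤ a := by exact_mod_cast h
    rw [Nat.sub_eq_zero_of_le h, add_zero, abs_of_nonneg (by linarith), Nat.cast_sub h]

section core

variable {V : Type}

/-- the levels which are kept by the step from bag `j` to bag `j+1` -/
def keep (h : V → ℕ) (B : ℕ → Set V) (j : ℕ) : Set ℕ := {a | ∃ z, z ∈ B j ∧ z ∈ B (j + 1) ∧ h z = a}

/-- what is used of the distance from a fixed point `x` -/
structure DistFrom (h : V → ℕ) (B : ℕ → Set V) (N T : ℕ) (x : V) (d : V → ℕ) : Prop where
  self : d x = 0
  lip : ∀ i ≤ N, ∀ y ∈ B i, ∀ z ∈ B i, d z ≤ d y + nd (h y) (h z)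
  ge : ∀ y, nd (h x) (h y) ≤ d y
  par : ∀ y, (d y + h x + h y) % 2 = 0
  lo : ∀ y, d y ≤ h x + h y
  hi : ∀ y, d y + h x + h y ≤ 2 * T
  le : ∀ y, h y ≤ T

variable {h : V → ℕ} {B : ℕ → Set V} {N T : ℕ} {x : V} {d : V → ℕ}

/-- the possible values at height `c` of column `k` -/
def vals (h : V → ℕ) (B : ℕ → Set V) (T : ℕ) (x : V) (d : V → ℕ) (k c : ℕ) : Set ℕ :=
  {n | (∃ y ∈ B k, n = d y + nd (h y) c) ∨ n = h x + c ∨ n + h x + c = 2 * T}

/-- distance from `x` to the point of height `c` of column `k` -/
noncomputable def F (h : V → ℕ) (B : ℕ → Set V) (T : ℕ) (x : V) (d : V → ℕ) (k c : ℕ) : ℕ :=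
  sInf (vals h B T x d k c)

theorem F_mem (k c : ℕ) : F h B T x d k c ∈ vals h B T x d k c :=
  Nat.sInf_mem ⟨h x + c, Or.inr (Or.inl rfl)⟩

theorem F_le {k c n : ℕ} (hn : n ∈ vals h B T x d k c) : F h B T x d k c ≤ n := Nat.sInf_le hn

theorem F_lip (hd : DistFrom h B N T x d) {k c c' : ℕ} (hc' : c' ≤ T) :
    F h B T x d k c' ≤ F h B T x d k c + nd c c' := by
  have hx := hd.le x
  rcases F_mem (h := h) (B := B) (T := T) (x := x) (d := d) k c with ⟨y, hy, hn⟩ | hn | hn
  · rw [hn]
    refine (F_le (Or.inl ⟨y, hy, rfl⟩)).trans ?_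
    unfold nd; omega
  · rw [hn]
    refine (F_le (Or.inr (Or.inl rfl))).trans ?_
    unfold nd; omega
  · refine (F_le (n := 2 * T - h x - c') (Or.inr (Or.inr ?_))).trans ?_
    · omega
    · unfold nd; omega

theorem F_par (hd : DistFrom h B N T x d) (k c : ℕ) :
    (F h B T x d k c + h x + c) % 2 = 0 := by
  rcases F_mem (h := h) (B := B) (T := T) (x := x) (d := d) k c with ⟨y, hy, hn⟩ | hn | hn
  · have := hd.par y
    rw [hn]; unfold nd; omega
  · omega
  · omega

theorem F_zero (hd : DistFrom h B N T x d) (k : ℕ) : F h B T x d k 0 = h x := by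
  apply le_antisymm
  · exact F_le (Or.inr (Or.inl rfl))
  · have hx := hd.le x
    rcases F_mem (h := h) (B := B) (T := T) (x := x) (d := d) k 0 with ⟨y, hy, hn⟩ | hn | hn
    · have := hd.ge y
      rw [hn]; unfold nd at *; omega
    · omega
    · omega

theorem F_top (hd : DistFrom h B N T x d) (k : ℕ) : F h B T x d k T + h x = T := by
  have hx := hd.le x
  apply le_antisymm
  · have := F_le (h := h) (B := B) (T := T) (x := x) (d := d) (k := k) (c := T) (n := T - h x)
      (Or.inr (Or.inr (by omega)))
    omega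
  · rcases F_mem (h := h) (B := B) (T := T) (x := x) (d := d) k T with ⟨y, hy, hn⟩ | hn | hn
    · have := hd.ge y
      have := hd.le y
      rw [hn]; unfold nd at *; omega
    · omega
    · omega

theorem F_at (hd : DistFrom h B N T x d) {k : ℕ} (hk : k ≤ N) {y : V} (hy : y ∈ B k) :
    F h B T x d k (h y) = d y := by
  apply le_antisymm
  · exact F_le (Or.inl ⟨y, hy, by unfold nd; omega⟩)
  · rcases F_mem (h := h) (B := B) (T := T) (x := x) (d := d) k (h y) with ⟨z, hz, hn⟩ | hn | hn
    · have := hd.lip k hk z hz y hy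
      omega
    · have := hd.lo y
      omega
    · have := hd.hi y
      omega

theorem F_self (hd : DistFrom h B N T x d) {i : ℕ} (hx : x ∈ B i) {c : ℕ} (hc : c ≤ T) :
    F h B T x d i c = nd (h x) c := by
  have hxT := hd.le x
  apply le_antisymm
  · exact F_le (Or.inl ⟨x, hx, by rw [hd.self, zero_add]⟩)
  · rcases F_mem (h := h) (B := B) (T := T) (x := x) (d := d) i c with ⟨z, hz, hn⟩ | hn | hn
    · have := hd.ge z
      rw [hn]; unfold nd at *; omega
    · unfold nd; omega
    · unfold nd; omega

/-- the positions of column `k` where `F` goes up -/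
noncomputable def up (h : V → ℕ) (B : ℕ → Set V) (T : ℕ) (x : V) (d : V → ℕ) (k : ℕ) :
    Finset (Fin T) :=
  univ.filter fun p => F h B T x d k (p + 1) = F h B T x d k p + 1

theorem card_up (hd : DistFrom h B N T x d) (k : ℕ) : ∀ c ≤ T,
    2 * ((up h B T x d k).filter fun p : Fin T => (p : ℕ) < c).card + h x =
      c + F h B T x d k c
  | 0, _ => by simp [F_zero hd]
  | c + 1, hc => by
    have ih := card_up hd k c (by omega)
    have hcT : c < T := hc
    have e : ((up h B T x d k).filter fun p : Fin T => (p : ℕ) < c + 1) =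
        ((up h B T x d k).filter fun p : Fin T => (p : ℕ) < c) ∪
          (if (⟨c, hcT⟩ : Fin T) ∈ up h B T x d k then {⟨c, hcT⟩} else ∅) := by
      ext p
      rw [mem_union, mem_filter, mem_filter]
      by_cases hp : (p : ℕ) = c
      · have hp' : p = ⟨c, hcT⟩ := Fin.ext hp
        subst hp'
        split_ifs with h1
        · simp [h1]
        · simp [h1]
      · have hp' : p ≠ ⟨c, hcT⟩ := fun h => hp (by rw [h])
        have h3 : (p : ℕ) < c + 1 ↔ (p : ℕ) < c := by omega
        rw [h3]
        split_ifs <;> simp [hp']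
    have h1 := F_lip hd (k := k) (c := c) (c' := c + 1) hc
    have h2 := F_lip hd (k := k) (c := c + 1) (c' := c) (by omega)
    have h3 := F_par hd k c
    have h4 := F_par hd k (c + 1)
    have h5 : nd c (c + 1) = 1 := by unfold nd; omega
    have h6 : nd (c + 1) c = 1 := by unfold nd; omega
    rw [h5] at h1; rw [h6] at h2
    by_cases hm : (⟨c, hcT⟩ : Fin T) ∈ up h B T x d k
    · rw [e, if_pos hm, card_union_of_disjoint, card_singleton]
      · simp only [up, mem_filter, mem_univ, true_and] at hm
        omega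
      · rw [Finset.disjoint_singleton_right, mem_filter]
        exact fun h => lt_irrefl _ h.2
    · rw [e, if_neg hm, union_empty]
      simp only [up, mem_filter, mem_univ, true_and] at hm
      omega

/-- **Realisation of distances by allowed configurations.** -/
theorem exists_config (hd : DistFrom h B N T x d) {i m : ℕ} (him : i + m ≤ N) (hx : x ∈ B i)
    {y : V} (hy : y ∈ B (i + m)) :
    ∃ w : ℕ → Perm (Fin T), (∀ j, Fixes (keep h B j) (w j)) ∧
      d y ≤ 2 * flux (h x) (win w i m) + nd (h x) (h y) := by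
  classical
  have hcard : ∀ j k, (up h B T x d j).card = (up h B T x d k).card := by
    intro j k
    have h1 := card_up hd j T le_rfl
    have h2 := card_up hd k T le_rfl
    have h3 := F_top hd j
    have h4 := F_top hd k
    have h5 : ∀ k, ((up h B T x d k).filter fun p : Fin T => (p : ℕ) < T) = up h B T x d k := by
      intro k
      exact Finset.filter_true_of_mem fun p _ => p.2
    rw [h5] at h1 h2
    omega
  have hstep : ∀ j, ∃ v : Perm (Fin T), Fixes (keep h B j) v ∧
      (j < N → ∀ p, p ∈ up h B T x d j ↔ v p ∈ up h B T x d (j + 1)) := by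
    intro j
    by_cases hj : j < N
    · obtain ⟨v, hv, hv'⟩ := exists_match (keep h B j) (up h B T x d j) (up h B T x d (j + 1))
        (hcard _ _) (by
          rintro a ⟨z, hz, hz', rfl⟩
          have h1 := card_up hd j (h z) (hd.le z)
          have h2 := card_up hd (j + 1) (h z) (hd.le z)
          rw [F_at hd hj.le hz] at h1
          rw [F_at hd (show j + 1 ≤ N by omega) hz'] at h2
          omega)
      exact ⟨v, hv, fun _ => hv'⟩
    · exact ⟨1, fun a _ p => Iff.rfl, fun h => absurd h hj⟩
  choose w hw hw' using hstep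
  refine ⟨w, hw, ?_⟩
  have hwin : ∀ m, i + m ≤ N → ∀ p, p ∈ up h B T x d i ↔ win w i m p ∈ up h B T x d (i + m) := by
    intro m
    induction m with
    | zero => intro _ p; exact Iff.rfl
    | succ m ih =>
      intro hm p
      rw [ih (by omega) p, win, Perm.mul_apply, ← add_assoc]
      exact hw' (i + m) (by omega) _
  have hxT := hd.le x
  have hself : ∀ p : Fin T, p ∈ up h B T x d i ↔ h x ≤ (p : ℕ) := by
    intro p
    simp only [up, mem_filter, mem_univ, true_and]
    have hp := p.2
    rw [F_self hd hx (show (p : ℕ) + 1 ≤ T by omega), F_self hd hx hp.le]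
    unfold nd; omega
  have hflux : flux (h x) (win w i m) =
      ((up h B T x d (i + m)).filter fun p : Fin T => (p : ℕ) < h x).card := by
    rw [← flux_down]
    refine Finset.card_bij (fun p _ => win w i m p) ?_
      (fun _ _ _ _ h => (win w i m).injective h) ?_
    · intro p hp
      simp only [mem_filter, mem_univ, true_and] at hp ⊢
      exact ⟨(hwin m him p).1 ((hself p).2 hp.1), hp.2⟩
    · intro q hq
      rw [mem_filter] at hq
      refine ⟨(win w i m).symm q, ?_, by simp⟩
      simp only [mem_filter, mem_univ, true_and, apply_symm_apply]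
      refine ⟨(hself _).1 ((hwin m him _).2 ?_), hq.2⟩
      simpa using hq.1
  have h1 := card_up hd (i + m) (h x) hxT
  rw [← hflux] at h1
  have h2 := F_lip hd (k := i + m) (c := h x) (c' := h y) (hd.le y)
  rw [F_at hd him hy] at h2
  omega

end core

end Vale.Agent.P235.Red
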