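/-
P235-M, reduction, part 3 (helper551): **the bag theorem**.  If a path decomposition of `G` with
bags `B 0, …, B N` of any size and a function `h` satisfy `pathDist u v = |h u - h v|` for all
`u, v` in a common bag, then `MStar f` gives an embedding with distortion `2 + 4 f N`.
-/
import Vale.Agent.P235.R2.RED.A2
import Vale.Agent.P235.H263.CutEmb

namespace Vale.Agent.P235.Red

open Equiv VPBruhat Finset

/-- a path decomposition into bags on which one common function is isometric -/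
structure Bags {V : Type} (G : SimpleGraph V) (ℓ : Sym2 V → ℝ) (h : V → ℝ) (N : ℕ)
    (B : ℕ → Set V) : Prop where
  every : ∀ v, ∃ i ≤ N, v ∈ B i
  cover : ∀ u v, G.Adj u v → ∃ i ≤ N, u ∈ B i ∧ v ∈ B i
  line : ∀ i ≤ N, ∀ u ∈ B i, ∀ v ∈ B i, pathDist G ℓ u v = |h u - h v|
  convex : ∀ v i j k, i ≤ j → j ≤ k → k ≤ N → v ∈ B i → v ∈ B k → v ∈ B j

/-! ### sizes of label sets -/

theorem dd_ge {T : ℕ} (A B : Finset (Fin T)) : |(A.card : ℝ) - B.card| ≤ dd A B := by
  have hA : (A.card : ℝ) = ∑ y, (if y ∈ A then (1 : ℝ) else 0) := by simp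
  have hB : (B.card : ℝ) = ∑ y, (if y ∈ B then (1 : ℝ) else 0) := by simp
  rw [hA, hB, ← Finset.sum_sub_distrib]
  exact Finset.abs_sum_le_sum_abs _ _

/-! ### the integral distance -/

section dist

variable {V : Type} {h : V → ℕ} {B : ℕ → Set V} {N : ℕ}

/-- join all pairs in a common bag -/
def bagGraph (B : ℕ → Set V) (N : ℕ) : SimpleGraph V where
  Adj x y := x ≠ y ∧ ∃ i ≤ N, x ∈ B i ∧ y ∈ B i
  symm := ⟨fun _ _ h => ⟨h.1.symm, by obtain ⟨i, hi, h1, h2⟩ := h.2; exact ⟨i, hi, h2, h1⟩⟩⟩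
  loopless := ⟨fun _ h => h.1 rfl⟩

theorem nd_comm (a b : ℕ) : nd a b = nd b a := by unfold nd; omega

/-- integral lengths -/
def len (h : V → ℕ) : Sym2 V → ℕ := Sym2.lift ⟨fun u v => nd (h u) (h v), fun _ _ => nd_comm _ _⟩

theorem len_mk (u v : V) : len h s(u, v) = nd (h u) (h v) := rfl

/-- the integral distance -/
noncomputable def dN (h : V → ℕ) (B : ℕ → Set V) (N : ℕ) (x y : V) : ℕ :=
  sInf (Set.range fun w : (bagGraph B N).Walk x y => (w.edges.map (len h)).sum)

theorem dN_attained (hc : (bagGraph B N).Connected) (x y : V) :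
    ∃ w : (bagGraph B N).Walk x y, (w.edges.map (len h)).sum = dN h B N x y := by
  have : Nonempty ((bagGraph B N).Walk x y) := hc x y
  exact Nat.sInf_mem (Set.range_nonempty _)

theorem dN_le {x y : V} (w : (bagGraph B N).Walk x y) :
    dN h B N x y ≤ (w.edges.map (len h)).sum := Nat.sInf_le ⟨w, rfl⟩

theorem dN_self (x : V) : dN h B N x x = 0 := by
  simpa using dN_le (h := h) (B := B) (N := N) (SimpleGraph.Walk.nil : (bagGraph B N).Walk x x)

theorem dN_comm (hc : (bagGraph B N).Connected) (x y : V) : dN h B N x y = dN h B N y x := by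
  have key : ∀ x y, dN h B N x y ≤ dN h B N y x := by
    intro x y
    obtain ⟨w, hw⟩ := dN_attained (h := h) hc y x
    rw [← hw]
    refine (dN_le w.reverse).trans ?_
    rw [SimpleGraph.Walk.edges_reverse, List.map_reverse, List.sum_reverse]
  exact le_antisymm (key x y) (key y x)

theorem dN_lip (hc : (bagGraph B N).Connected) (x : V) {i : ℕ} (hi : i ≤ N) {y z : V}
    (hy : y ∈ B i) (hz : z ∈ B i) : dN h B N x z ≤ dN h B N x y + nd (h y) (h z) := by
  by_cases hyz : y = z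
  · subst hyz; omega
  · obtain ⟨w, hw⟩ := dN_attained (h := h) hc x y
    have hadj : (bagGraph B N).Adj y z := ⟨hyz, i, hi, hy, hz⟩
    refine (dN_le (w.concat hadj)).trans ?_
    rw [SimpleGraph.Walk.edges_concat, List.concat_eq_append, List.map_append, List.sum_append, hw]
    simp [len_mk]

theorem walk_ge {x y : V} (w : (bagGraph B N).Walk x y) :
    nd (h x) (h y) ≤ (w.edges.map (len h)).sum := by
  induction w with
  | nil => simp [nd]
  | @cons a b c hab p ih =>
    rw [SimpleGraph.Walk.edges_cons, List.map_cons, List.sum_cons, len_mk]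
    unfold nd at *; omega

theorem walk_par {x y : V} (w : (bagGraph B N).Walk x y) :
    ((w.edges.map (len h)).sum + h x + h y) % 2 = 0 := by
  induction w with
  | nil => simp; omega
  | @cons a b c hab p ih =>
    rw [SimpleGraph.Walk.edges_cons, List.map_cons, List.sum_cons, len_mk]
    unfold nd at *; omega

end dist

/-! ### the random cuts -/

section cuts

variable {V : Type} {h : V → ℕ} {B : ℕ → Set V} {N T : ℕ}

/-- **Integral core**: `ρ ≤` the height difference inside a bag, and `dN ≤ (1 + 2 K) ρ`. -/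
theorem core {f : ℕ → ℝ} (hf : MStar f) (hfN : 0 ≤ f N)
    (hc : (bagGraph B N).Connected)
    (every : ∀ v, ∃ i ≤ N, v ∈ B i)
    (convex : ∀ v i j k, i ≤ j → j ≤ k → k ≤ N → v ∈ B i → v ∈ B k → v ∈ B j)
    (lo : ∀ x y, dN h B N x y ≤ h x + h y) (hi : ∀ x y, dN h B N x y + h x + h y ≤ 2 * T)
    (hT : ∀ x, h x ≤ T) :
    ∃ (Ω : Type) (_ : Fintype Ω) (p : Ω → ℝ) (X : Ω → V → ℝ), (∀ ω, 0 ≤ p ω) ∧
      (∀ i ≤ N, ∀ x ∈ B i, ∀ y ∈ B i, ∑ ω, p ω * |X ω x - X ω y| ≤ (nd (h x) (h y) : ℝ)) ∧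
      (∀ x y, (dN h B N x y : ℝ) ≤ (1 + 2 * f N) * ∑ ω, p ω * |X ω x - X ω y|) := by
  classical
  obtain ⟨Ω, _, p, v, hp, hp1, hv, hserve⟩ := hf N T (keep h B)
  choose idx hidx hmem using every
  let S : Ω → V → Finset (Fin T) := fun ω x => lab (v ω) (idx x) (h x)
  -- independence of the choice of the bag
  have hle : ∀ ω x i k, i ≤ k → k ≤ N → x ∈ B i → x ∈ B k →
      lab (v ω) k (h x) = lab (v ω) i (h x) := by
    intro ω x i k hik hk hi' hk'
    obtain ⟨m, rfl⟩ := Nat.exists_eq_add_of_le hik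
    refine lab_const (hv ω) m fun j h1 h2 => ?_
    exact ⟨x, convex x i j (i + m) h1 (by omega) hk hi' hk',
      convex x i (j + 1) (i + m) (by omega) (by omega) hk hi' hk', rfl⟩
  have hS : ∀ ω x i, i ≤ N → x ∈ B i → S ω x = lab (v ω) i (h x) := by
    intro ω x i hi' hx
    rcases le_total i (idx x) with h1 | h1
    · exact hle ω x i (idx x) h1 (hidx x) hx (hmem x)
    · exact (hle ω x (idx x) i h1 hi' (hmem x) hx).symm
  set ρ : V → V → ℝ := fun x y => ∑ ω, p ω * dd (S ω x) (S ω y) with hρ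
  have hρc : ∀ x y, ρ x y = ρ y x := fun x y =>
    Finset.sum_congr rfl fun ω _ => by rw [dd_comm]
  have hρ0 : ∀ x y, (nd (h x) (h y) : ℝ) ≤ ρ x y := by
    intro x y
    have h1 : ∀ ω, p ω * (nd (h x) (h y) : ℝ) ≤ p ω * dd (S ω x) (S ω y) := by
      intro ω
      refine mul_le_mul_of_nonneg_left ?_ (hp ω)
      have := dd_ge (S ω x) (S ω y)
      rw [card_lab _ _ (hT x), card_lab _ _ (hT y), ← nd_cast] at this
      exact this
    calc (nd (h x) (h y) : ℝ) = ∑ ω, p ω * (nd (h x) (h y) : ℝ) := by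
          rw [← Finset.sum_mul, hp1, one_mul]
      _ ≤ _ := Finset.sum_le_sum fun ω _ => h1 ω
  have hup : ∀ i ≤ N, ∀ x ∈ B i, ∀ y ∈ B i, ρ x y ≤ (nd (h x) (h y) : ℝ) := by
    intro i hi' x hx y hy
    have h1 : ∀ ω, p ω * dd (S ω x) (S ω y) = p ω * (nd (h x) (h y) : ℝ) := by
      intro ω
      rw [hS ω x i hi' hx, hS ω y i hi' hy, dd_lab_level _ _ (hT x) (hT y), ← nd_cast]
    rw [hρ]
    simp only [h1]
    rw [← Finset.sum_mul, hp1, one_mul]
  have hlow : ∀ x y, idx x ≤ idx y → (dN h B N x y : ℝ) ≤ (1 + 2 * f N) * ρ x y := by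
    intro x y hxy
    obtain ⟨m, hm⟩ := Nat.exists_eq_add_of_le hxy
    have hiy := hidx y
    rw [hm] at hiy
    have hd : DistFrom h B N T x (dN h B N x) := by
      refine ⟨dN_self x, fun i hi' y hy z hz => dN_lip hc x hi' hy hz, ?_, ?_, lo x, hi x, hT⟩
      · intro y
        obtain ⟨w, hw⟩ := dN_attained (h := h) hc x y
        rw [← hw]; exact walk_ge w
      · intro y
        obtain ⟨w, hw⟩ := dN_attained (h := h) hc x y
        rw [← hw]; exact walk_par w
    have hy' : y ∈ B (idx x + m) := by rw [← hm]; exact hmem y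
    obtain ⟨w, hw, hdw⟩ := exists_config hd hiy (hmem x) hy'
    have h1 := hserve (idx x) m (h x) hiy w hw
    have h2 : ∀ ω, 2 * (flux (h x) (win (v ω) (idx x) m) : ℝ) ≤
        dd (S ω x) (S ω y) + (nd (h x) (h y) : ℝ) := by
      intro ω
      rw [← dd_lab_win]
      have e1 : S ω y = lab (v ω) (idx x + m) (h y) := hS ω y _ hiy hy'
      refine (dd_tri _ (S ω y) _).trans ?_
      rw [e1, dd_lab_level _ _ (hT y) (hT x), ← nd_cast, nd_comm (h y) (h x)]
    have h3 : 2 * ∑ ω, p ω * (flux (h x) (win (v ω) (idx x) m) : ℝ) ≤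
        ρ x y + (nd (h x) (h y) : ℝ) := by
      calc 2 * ∑ ω, p ω * (flux (h x) (win (v ω) (idx x) m) : ℝ)
          = ∑ ω, p ω * (2 * (flux (h x) (win (v ω) (idx x) m) : ℝ)) := by
            rw [Finset.mul_sum]; exact Finset.sum_congr rfl fun _ _ => by ring
        _ ≤ ∑ ω, p ω * (dd (S ω x) (S ω y) + (nd (h x) (h y) : ℝ)) :=
            Finset.sum_le_sum fun ω _ => mul_le_mul_of_nonneg_left (h2 ω) (hp ω)
        _ = _ := by
            rw [hρ]; simp only [mul_add, Finset.sum_add_distrib]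
            rw [← Finset.sum_mul, hp1, one_mul]
    have h4 := hρ0 x y
    have h5 : (dN h B N x y : ℝ) ≤
        2 * (flux (h x) (win w (idx x) m) : ℝ) + (nd (h x) (h y) : ℝ) := by exact_mod_cast hdw
    have h6 : f N * (2 * ∑ ω, p ω * (flux (h x) (win (v ω) (idx x) m) : ℝ)) ≤
        f N * (2 * ρ x y) := mul_le_mul_of_nonneg_left (by linarith) hfN
    calc (dN h B N x y : ℝ) ≤ 2 * (flux (h x) (win w (idx x) m) : ℝ) + (nd (h x) (h y) : ℝ) := h5
      _ ≤ f N * (2 * ∑ ω, p ω * (flux (h x) (win (v ω) (idx x) m) : ℝ)) + ρ x y := by linarith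
      _ ≤ f N * (2 * ρ x y) + ρ x y := by linarith
      _ = _ := by ring
  have hlow' : ∀ x y, (dN h B N x y : ℝ) ≤ (1 + 2 * f N) * ρ x y := by
    intro x y
    rcases le_total (idx x) (idx y) with h1 | h1
    · exact hlow x y h1
    · rw [dN_comm hc, hρc]; exact hlow y x h1
  have hsum : ∀ x y, ∑ q : Ω × Fin T, p q.1 *
      |(if q.2 ∈ S q.1 x then (1 : ℝ) else 0) - (if q.2 ∈ S q.1 y then (1 : ℝ) else 0)| =
      ρ x y := by
    intro x y
    rw [Fintype.sum_prod_type]
    refine Finset.sum_congr rfl fun ω _ => ?_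
    rw [dd, Finset.mul_sum]
  refine ⟨Ω × Fin T, inferInstance, fun q => p q.1,
    fun q x => if q.2 ∈ S q.1 x then (1 : ℝ) else 0, fun q => hp q.1, ?_, ?_⟩
  · intro i hi' x hx y hy
    rw [hsum]; exact hup i hi' x hx y hy
  · intro x y
    rw [hsum]; exact hlow' x y

end cuts

end Vale.Agent.P235.Red
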