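/-
P235-M, reduction, part 4 (helper551): **the bag theorem** for real heights.
-/
import Vale.Agent.P235.R2.RED.Bags

namespace Vale.Agent.P235.Red

open Equiv VPBruhat Finset

section pathDist
variable {V : Type} {G : SimpleGraph V} {ℓ : Sym2 V → ℝ}

theorem walk_sum_nonneg (hℓ : ∀ e ∈ G.edgeSet, 0 < ℓ e) {x y : V} (w : G.Walk x y) :
    0 ≤ (w.edges.map ℓ).sum := by
  apply List.sum_nonneg
  intro a ha
  rw [List.mem_map] at ha
  obtain ⟨e, he, rfl⟩ := ha
  exact (hℓ e (w.edges_subset_edgeSet he)).le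

theorem pd_le (hℓ : ∀ e ∈ G.edgeSet, 0 < ℓ e) {x y : V} (w : G.Walk x y) :
    pathDist G ℓ x y ≤ (w.edges.map ℓ).sum :=
  ciInf_le ⟨0, by rintro _ ⟨w, rfl⟩; exact walk_sum_nonneg hℓ w⟩ w

theorem pd_nonneg (hℓ : ∀ e ∈ G.edgeSet, 0 < ℓ e) (x y : V) : 0 ≤ pathDist G ℓ x y :=
  Real.iInf_nonneg fun w => walk_sum_nonneg hℓ w

theorem pd_self (hℓ : ∀ e ∈ G.edgeSet, 0 < ℓ e) (x : V) : pathDist G ℓ x x = 0 :=
  le_antisymm (by simpa using pd_le hℓ (SimpleGraph.Walk.nil : G.Walk x x)) (pd_nonneg hℓ x x)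

theorem pd_adj (hℓ : ∀ e ∈ G.edgeSet, 0 < ℓ e) {x y : V} (h : G.Adj x y) :
    pathDist G ℓ x y ≤ ℓ s(x, y) := by
  simpa using pd_le hℓ (SimpleGraph.Walk.cons h SimpleGraph.Walk.nil)

theorem pd_comm (hc : G.Connected) (hℓ : ∀ e ∈ G.edgeSet, 0 < ℓ e) (x y : V) :
    pathDist G ℓ x y = pathDist G ℓ y x := by
  have key : ∀ a b : V, pathDist G ℓ a b ≤ pathDist G ℓ b a := by
    intro a b
    have : Nonempty (G.Walk b a) := hc b a
    refine le_ciInf fun w => ?_
    refine (pd_le hℓ w.reverse).trans ?_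
    rw [SimpleGraph.Walk.edges_reverse, List.map_reverse, List.sum_reverse]
  exact le_antisymm (key x y) (key y x)

theorem pd_tri (hc : G.Connected) (hℓ : ∀ e ∈ G.edgeSet, 0 < ℓ e) (x y z : V) :
    pathDist G ℓ x z ≤ pathDist G ℓ x y + pathDist G ℓ y z := by
  have h1 : Nonempty (G.Walk x y) := hc x y
  have h2 : Nonempty (G.Walk y z) := hc y z
  have key : ∀ w' : G.Walk y z, pathDist G ℓ x z - (w'.edges.map ℓ).sum ≤ pathDist G ℓ x y := by
    intro w'
    refine le_ciInf fun w => ?_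
    have := pd_le hℓ (w.append w')
    rw [SimpleGraph.Walk.edges_append, List.map_append, List.sum_append] at this
    linarith
  have : pathDist G ℓ x z - pathDist G ℓ x y ≤ pathDist G ℓ y z :=
    le_ciInf fun w' => by linarith [key w']
  linarith

/-- a semimetric which is `≤ K ℓ` on all edges is `≤ K pathDist` -/
theorem pd_semi {ρ : V → V → ℝ} {K : ℝ} (hc : G.Connected) (hK : 0 < K)
    (h0 : ∀ x, ρ x x = 0) (ht : ∀ x y z, ρ x z ≤ ρ x y + ρ y z)
    (he : ∀ u v, G.Adj u v → ρ u v ≤ K * ℓ s(u, v)) (x y : V) :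
    ρ x y ≤ K * pathDist G ℓ x y := by
  have : Nonempty (G.Walk x y) := hc x y
  rw [← div_le_iff₀' hK]
  refine le_ciInf fun p => ?_
  rw [div_le_iff₀' hK]
  induction p with
  | nil => simp [h0]
  | @cons x a y h p ih =>
    rw [SimpleGraph.Walk.edges_cons, List.map_cons, List.sum_cons, mul_add]
    exact (ht x a y).trans (add_le_add (he _ _ h) (ih (hc a y)))

/-- different points have distance at least the shortest edge -/
theorem pd_ge {δ : ℝ} (hc : G.Connected) (hℓ : ∀ e ∈ G.edgeSet, 0 < ℓ e)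
    (hδ : ∀ e ∈ G.edgeSet, δ ≤ ℓ e) {x y : V} (hxy : x ≠ y) : δ ≤ pathDist G ℓ x y := by
  have : Nonempty (G.Walk x y) := hc x y
  refine le_ciInf fun w => ?_
  cases w with
  | nil => exact absurd rfl hxy
  | @cons _ a _ h p =>
    rw [SimpleGraph.Walk.edges_cons, List.map_cons, List.sum_cons]
    have := walk_sum_nonneg hℓ p
    have := hδ _ ((SimpleGraph.mem_edgeSet G).2 h)
    linarith

theorem exists_min_len [Finite V] (hℓ : ∀ e ∈ G.edgeSet, 0 < ℓ e) :
    ∃ δ : ℝ, 0 < δ ∧ ∀ e ∈ G.edgeSet, δ ≤ ℓ e := by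
  have hfin : (insert (1 : ℝ) (ℓ '' G.edgeSet)).Finite :=
    ((Set.toFinite G.edgeSet).image ℓ).insert 1
  obtain ⟨δ, hδ, hmin⟩ := Set.exists_min_image _ (fun z : ℝ => z) hfin (Set.insert_nonempty _ _)
  refine ⟨δ, ?_, fun e he => hmin _ (Or.inr ⟨e, he, rfl⟩)⟩
  rcases hδ with rfl | ⟨e, he, rfl⟩
  · exact one_pos
  · exact hℓ e he

end pathDist

theorem floor_diff {a b : ℝ} (ha : 0 ≤ a) (hb : 0 ≤ b) :
    |a - b| - 1 ≤ (nd ⌊a⌋₊ ⌊b⌋₊ : ℝ) ∧ (nd ⌊a⌋₊ ⌊b⌋₊ : ℝ) ≤ |a - b| + 1 := by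
  rw [nd_cast]
  have h1 := Nat.floor_le ha
  have h2 := Nat.lt_floor_add_one a
  have h3 := Nat.floor_le hb
  have h4 := Nat.lt_floor_add_one b
  constructor
  · rw [sub_le_iff_le_add, abs_le]
    constructor
    · have := neg_abs_le ((⌊a⌋₊ : ℝ) - ⌊b⌋₊); linarith
    · have := le_abs_self ((⌊a⌋₊ : ℝ) - ⌊b⌋₊); linarith
  · rw [abs_le]
    constructor
    · have := neg_abs_le (a - b); linarith
    · have := le_abs_self (a - b); linarith

/-- **The bag theorem.** -/
theorem bag_theorem {f : ℕ → ℝ} (hf : MStar f) {V : Type} [Finite V] {G : SimpleGraph V}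
    {ℓ : Sym2 V → ℝ} {h : V → ℝ} {N : ℕ} {B : ℕ → Set V} (hc : G.Connected)
    (hℓ : ∀ e ∈ G.edgeSet, 0 < ℓ e) (hb : Bags G ℓ h N B) (hfN : 0 ≤ f N) :
    EmbedsL1 (pathDist G ℓ) (2 + 4 * f N) := by
  classical
  obtain ⟨δ, hδ, hδℓ⟩ := exists_min_len hℓ
  have hVne : Nonempty V := hc.nonempty
  obtain ⟨m, hm⟩ : ∃ m : ℝ, ∀ x, m ≤ h x := by
    obtain ⟨m, hm⟩ := (Set.finite_range h).bddBelow
    exact ⟨m, fun x => hm ⟨x, rfl⟩⟩
  set K : ℝ := 5 / δ with hK
  have hKpos : 0 < K := by positivity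
  have hKδ : K * δ = 5 := by rw [hK]; field_simp
  set h0 : V → ℕ := fun x => ⌊K * (h x - m)⌋₊ with hh0
  -- rounding inside the bags
  have hround : ∀ i ≤ N, ∀ x ∈ B i, ∀ y ∈ B i,
      4 / 5 * K * pathDist G ℓ x y ≤ (nd (h0 x) (h0 y) : ℝ) ∧
        (nd (h0 x) (h0 y) : ℝ) ≤ 6 / 5 * K * pathDist G ℓ x y := by
    intro i hi x hx y hy
    by_cases hxy : x = y
    · subst hxy
      rw [pd_self hℓ]; simp [nd]
    · have h1 := pd_ge hc hℓ hδℓ hxy
      have h2 := hb.line i hi x hx y hy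
      have h3 := floor_diff (a := K * (h x - m)) (b := K * (h y - m))
        (mul_nonneg hKpos.le (by linarith [hm x])) (mul_nonneg hKpos.le (by linarith [hm y]))
      have h4 : K * (h x - m) - K * (h y - m) = K * (h x - h y) := by ring
      rw [h4, abs_mul, abs_of_pos hKpos, ← h2] at h3
      have h5 : 5 ≤ K * pathDist G ℓ x y := by
        rw [← hKδ]; exact mul_le_mul_of_nonneg_left h1 hKpos.le
      exact ⟨by linarith [h3.1], by linarith [h3.2]⟩
  -- the bag graph is connected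
  have hGle : ∀ u v, G.Adj u v → (bagGraph B N).Adj u v := fun u v huv => by
    obtain ⟨i, hi, h1, h2⟩ := hb.cover u v huv
    exact ⟨huv.ne, i, hi, h1, h2⟩
  have hbc : (bagGraph B N).Connected := hc.mono (fun u v huv => hGle u v huv)
  -- shift
  obtain ⟨D, hD⟩ : ∃ D : ℕ, ∀ x y, dN h0 B N x y ≤ D := by
    obtain ⟨D, hD⟩ := (Set.finite_range fun q : V × V => dN h0 B N q.1 q.2).bddAbove
    exact ⟨D, fun x y => hD ⟨(x, y), rfl⟩⟩
  obtain ⟨E, hE⟩ : ∃ E : ℕ, ∀ x, h0 x ≤ E := by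
    obtain ⟨E, hE⟩ := (Set.finite_range h0).bddAbove
    exact ⟨E, fun x => hE ⟨x, rfl⟩⟩
  set h' : V → ℕ := fun x => h0 x + D with hh'
  have hnd : ∀ x y, nd (h' x) (h' y) = nd (h0 x) (h0 y) := by
    intro x y; unfold nd; simp only [hh']; omega
  have hlen : len h' = len h0 := by
    funext e
    induction e with
    | _ u v => exact hnd u v
  have hdN : ∀ x y, dN h' B N x y = dN h0 B N x y := by
    intro x y; unfold dN; rw [hlen]
  obtain ⟨Ω, _, p, X, hp, h1, h2⟩ := core (h := h') (B := B) (N := N) (T := 2 * D + E) hf hfN hbc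
    hb.every hb.convex
    (by intro x y; rw [hdN]; simp only [hh']; have := hD x y; omega)
    (by intro x y; rw [hdN]; simp only [hh']; have := hD x y; have := hE x; have := hE y; omega)
    (by intro x; simp only [hh']; have := hE x; omega)
  set ρ : V → V → ℝ := fun x y => ∑ ω, p ω * |X ω x - X ω y| with hρ
  have hρ0 : ∀ x, ρ x x = 0 := by intro x; simp [hρ]
  have hρt : ∀ x y z, ρ x z ≤ ρ x y + ρ y z := by
    intro x y z
    rw [hρ]
    simp only
    rw [← Finset.sum_add_distrib]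
    refine Finset.sum_le_sum fun ω _ => ?_
    rw [← mul_add]
    exact mul_le_mul_of_nonneg_left (abs_sub_le _ _ _) (hp ω)
  have hup : ∀ x y, ρ x y ≤ 6 / 5 * K * pathDist G ℓ x y := by
    refine pd_semi hc (by positivity) hρ0 hρt fun u v huv => ?_
    obtain ⟨i, hi, hu, hv⟩ := hb.cover u v huv
    refine (h1 i hi u hu v hv).trans ?_
    rw [hnd]
    refine ((hround i hi u hu v hv).2).trans ?_
    exact mul_le_mul_of_nonneg_left (pd_adj hℓ huv) (by positivity)
  have hwalk : ∀ x y, ∀ w : (bagGraph B N).Walk x y,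
      4 / 5 * K * pathDist G ℓ x y ≤ ((w.edges.map (len h0)).sum : ℝ) := by
    intro x y w
    induction w with
    | nil => rw [pd_self hℓ]; simp
    | @cons a b c hab q ih =>
      rw [SimpleGraph.Walk.edges_cons, List.map_cons, List.sum_cons, len_mk]
      obtain ⟨-, i, hi, ha, hb'⟩ := hab
      have h3 := (hround i hi a ha b hb').1
      have h4 := pd_tri hc hℓ a b c
      have h5 : 4 / 5 * K * pathDist G ℓ a c ≤
          4 / 5 * K * (pathDist G ℓ a b + pathDist G ℓ b c) :=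
        mul_le_mul_of_nonneg_left h4 (by positivity)
      push_cast
      push_cast at ih
      linarith
  have hlow : ∀ x y, 4 / 5 * K * pathDist G ℓ x y ≤ (1 + 2 * f N) * ρ x y := by
    intro x y
    refine le_trans ?_ (h2 x y)
    rw [hdN]
    obtain ⟨w, hw⟩ := dN_attained (h := h0) hbc x y
    rw [← hw]
    exact hwalk x y w
  set c : ℝ := (1 + 2 * f N) / (4 / 5 * K) with hcdef
  have hc0 : 0 ≤ c := div_nonneg (by linarith) (by positivity)
  have hsum : ∀ x y, ∑ ω, c * p ω * |X ω x - X ω y| = c * ρ x y := by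
    intro x y
    rw [hρ]; simp only; rw [Finset.mul_sum]
    exact Finset.sum_congr rfl fun _ _ => by ring
  refine H263.embeds_of_family (P := fun ω => c * p ω) (fun ω => mul_nonneg hc0 (hp ω)) X ?_ ?_
  · intro x y
    rw [hsum, hcdef, div_mul_eq_mul_div, le_div_iff₀ (by positivity)]
    linarith [hlow x y]
  · intro x y
    rw [hsum]
    calc c * ρ x y ≤ c * (6 / 5 * K * pathDist G ℓ x y) :=
          mul_le_mul_of_nonneg_left (hup x y) hc0
      _ = (3 / 2) * (1 + 2 * f N) * pathDist G ℓ x y := by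
          rw [hcdef]; field_simp; ring
      _ ≤ (2 + 4 * f N) * pathDist G ℓ x y :=
          mul_le_mul_of_nonneg_right (by linarith) (pd_nonneg hℓ x y)

end Vale.Agent.P235.Red
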