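/-
P235-M, final assembly (helper551) from `MStar f`, `f N = C (log₂ log₂ N + 3)`, and row C.
-/
import Vale.Agent.P235.R2.H168.Graph
import Vale.Agent.P235.R2.H341.F
import Vale.Agent.P235.R2.RED.Bags2
import Vale.Agent.P235.R2.H673.SweepOf

namespace Vale.Agent.P235.Red

/-- integral part of `log₂ (⌊log₂ n⌋ + 1)` -/
def ll (n : ℕ) : ℕ := Nat.log 2 (Nat.log 2 n + 1)

theorem log_sq (n : ℕ) : Nat.log 2 (n ^ 2) ≤ 2 * Nat.log 2 n + 1 := by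
  rcases Nat.eq_zero_or_pos n with rfl | hn
  · simp
  · have h1 : n < 2 ^ (Nat.log 2 n + 1) := Nat.lt_pow_succ_log_self (by norm_num) n
    have h2 : n ^ 2 < 2 ^ (2 * Nat.log 2 n + 1 + 1) := by
      calc n ^ 2 < (2 ^ (Nat.log 2 n + 1)) ^ 2 := Nat.pow_lt_pow_left h1 (by norm_num)
        _ = 2 ^ (2 * Nat.log 2 n + 1 + 1) := by rw [← pow_mul]; congr 1; ring
    exact Nat.lt_succ_iff.1 ((Nat.log_lt_iff_lt_pow (by norm_num) (by positivity)).2 h2)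

theorem ll_sq (n : ℕ) : ll (n ^ 2) ≤ ll n + 1 := by
  unfold ll
  have h1 : Nat.log 2 (n ^ 2) + 1 ≤ (Nat.log 2 n + 1) * 2 := by have := log_sq n; omega
  calc Nat.log 2 (Nat.log 2 (n ^ 2) + 1) ≤ Nat.log 2 ((Nat.log 2 n + 1) * 2) :=
        Nat.log_mono_right h1
    _ = Nat.log 2 (Nat.log 2 n + 1) + 1 := Nat.log_mul_base (by norm_num) (by omega)

/-- the word theorem with constant `C` -/
def MStarLL (C : ℝ) : Prop := MStar fun N => C * ((ll N : ℝ) + 3)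

/-- bags -/
theorem final_bags {C : ℝ} (hC : 1 ≤ C) (hM : MStarLL C) (V : Type) [Finite V]
    (G : SimpleGraph V) (ℓ : Sym2 V → ℝ) (N : ℕ) (B : ℕ → Set V) (hc : G.Connected)
    (hℓ : ∀ e ∈ G.edgeSet, 0 < ℓ e) (hB : VPRed.LineBags (pathDist G ℓ) N B)
    (hE : ∀ u v, G.Adj u v → ∃ i, i ≤ N ∧ u ∈ B i ∧ v ∈ B i) :
    EmbedsL1 (pathDist G ℓ) (32 * C * ((ll N : ℝ) + 1)) := by
  have h1 : (1 : ℝ) ≤ C * ((ll N : ℝ) + 3) := by
    have : (0 : ℝ) ≤ (ll N : ℝ) := Nat.cast_nonneg _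
    nlinarith
  obtain ⟨Ω, m, μ, g, hg⟩ := VPRed.graph_embeds hc hℓ hB hE hM h1
  refine ⟨Ω, m, μ, g, fun x y => ⟨(hg x y).1, (hg x y).2.trans ?_⟩⟩
  refine mul_le_mul_of_nonneg_right ?_ (pd_nonneg hℓ x y)
  have : (0 : ℝ) ≤ C * (ll N : ℝ) := mul_nonneg (by linarith) (Nat.cast_nonneg _)
  linarith

/-- plane graphs, every edge on a shortest `s`-`t` path, `s`, `t` on one face -/
theorem final_plane {C : ℝ} (hC : 1 ≤ C) (hM : MStarLL C) (hRC : RowC) (V : Type) [Finite V]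
    (G : SimpleGraph V) (σ : Equiv.Perm G.Dart) (d₀ : G.Dart) (ℓ : Sym2 V → ℝ) (s t : V)
    (hc : G.Connected) (hP : PlaneMap G σ) (hs : s ∈ onFace σ d₀) (ht : t ∈ onFace σ d₀)
    (hℓ : ∀ e ∈ G.edgeSet, 0 < ℓ e)
    (htight : ∀ u v, G.Adj u v →
      pathDist G ℓ s u + ℓ s(u, v) + pathDist G ℓ v t = pathDist G ℓ s t ∨
      pathDist G ℓ s v + ℓ s(u, v) + pathDist G ℓ u t = pathDist G ℓ s t) :
    EmbedsL1 (pathDist G ℓ) (32 * C * ((ll (Nat.card V) : ℝ) + 1)) := by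
  have hf : ∀ N, (0 : ℝ) ≤ C * ((ll N : ℝ) + 3) := fun N => by positivity
  have hB : RowB := by
    intro f hf V _ G ℓ h N P h0 hS hl hpos
    have hc : G.Connected := R2.H673.sweep_connected hS
    exact bag_theorem hf hc (fun e he => by
      induction e with
      | _ u v => exact hpos u v he) (R2.H673.bags_of_sweep hS hl hpos) h0
  obtain ⟨Ω, m, μ, g, hg⟩ := F0.rowF_of hB hRC hM hf V G σ d₀ ℓ s t hc hP hs ht hℓ htight
  refine ⟨Ω, m, μ, g, fun x y => ⟨(hg x y).1, (hg x y).2.trans ?_⟩⟩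
  refine mul_le_mul_of_nonneg_right ?_ (pd_nonneg hℓ x y)
  have h2 : (ll (Nat.card V ^ 2) : ℝ) ≤ (ll (Nat.card V) : ℝ) + 1 := by exact_mod_cast ll_sq _
  have h3 : C * (ll (Nat.card V ^ 2) : ℝ) ≤ C * ((ll (Nat.card V) : ℝ) + 1) :=
    mul_le_mul_of_nonneg_left h2 (by linarith)
  have : (0 : ℝ) ≤ C * (ll (Nat.card V) : ℝ) := mul_nonneg (by linarith) (Nat.cast_nonneg _)
  linarith

end Vale.Agent.P235.Red
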