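/-
P235-M, final assembly, version 2 (helper551): plane graphs with a height function of slopes in
[1/D, 1] and exactly two local extrema anywhere.
-/
import Vale.Agent.P235.R2.H168.Plane
import Vale.Agent.P235.R2.H168.Quasi
import Vale.Agent.P235.R2.H318.CycPlane
import Vale.Agent.P235.R2.H934.Cyc2

namespace Vale.Agent.P235.Red

open R2.H168

/-- a plane graph with the lengths of a height function with only two local extrema -/
theorem plane_height_any {C : ℝ} (hC : 1 ≤ C) (hM : MStarLL C) (V : Type) [Finite V]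
    (G : SimpleGraph V) (σ : Equiv.Perm G.Dart) (h : V → ℝ) (s t : V)
    (hc : G.Connected) (hP : PlaneMap G σ) (hU : UpDown G h s t) :
    EmbedsL1 (pathDist G (hlen h)) (219073 * (32 * C * ((ll (Nat.card V) : ℝ) + 1))) := by
  have hf : ∀ N, (0 : ℝ) ≤ C * ((ll N : ℝ) + 3) := fun N => by positivity
  have hpos : ∀ u v, G.Adj u v → 0 < hlen h s(u, v) := fun u v ha =>
    abs_pos.2 (sub_ne_zero.2 (hU.ne u v ha))
  have hℓ : ∀ e ∈ G.edgeSet, 0 < hlen h e := fun e he => by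
    induction e with
    | _ u v => exact hpos u v he
  obtain ⟨P, hS⟩ := rowCyc V G σ h s t hc hP hU
  obtain ⟨Ω, m, μ, g, hg⟩ := H318.cyc_bag_theorem hM hc hℓ
    (H318.cycBags_of_sweep hS (fun u v _ => rfl) hpos) (hf _)
  refine ⟨Ω, m, μ, g, fun x y => ⟨(hg x y).1, (hg x y).2.trans ?_⟩⟩
  refine mul_le_mul_of_nonneg_right ?_ (pd_nonneg hℓ x y)
  refine mul_le_mul_of_nonneg_left ?_ (by norm_num)
  have h2 : (ll (Nat.card V ^ 2) : ℝ) ≤ (ll (Nat.card V) : ℝ) + 1 := by exact_mod_cast ll_sq _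
  have h3 : C * (ll (Nat.card V ^ 2) : ℝ) ≤ C * ((ll (Nat.card V) : ℝ) + 1) :=
    mul_le_mul_of_nonneg_left h2 (by linarith)
  have : (0 : ℝ) ≤ C * (ll (Nat.card V) : ℝ) := mul_nonneg (by linarith) (Nat.cast_nonneg _)
  linarith

/-- a plane map has an edge -/
theorem planeMap_adj {V : Type} [Finite V] {G : SimpleGraph V} {σ : Equiv.Perm G.Dart}
    (hc : G.Connected) (hP : PlaneMap G σ) : ∃ u v, G.Adj u v := by
  by_contra hno
  push Not at hno
  have hsub : Subsingleton V := by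
    refine ⟨fun x y => ?_⟩
    by_contra hxy
    obtain ⟨w⟩ := hc x y
    cases w with
    | nil => exact hxy rfl
    | cons h p => exact hno _ _ h
  have hD : IsEmpty G.Dart := ⟨fun d => hno _ _ d.adj⟩
  have hE : G.edgeSet = ∅ := by
    ext e
    induction e with
    | _ u v => simp [hno u v]
  have h1 := hP.euler
  have h2 : Nat.card V ≤ 1 := by
    have := hc.nonempty
    rw [Nat.card_eq_one_iff_unique.2 ⟨hsub, this⟩]
  have h3 : Nat.card (Quotient (Equiv.Perm.SameCycle.setoid (faceNext σ))) = 0 := by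
    have : IsEmpty (Quotient (Equiv.Perm.SameCycle.setoid (faceNext σ))) :=
      ⟨fun q => by induction q using Quotient.ind with | _ d => exact hD.elim d⟩
    exact Nat.card_of_isEmpty
  rw [h3, hE] at h1
  simp at h1
  omega

/-- **Slopes in `[1/D, 1]`, two local extrema anywhere.** -/
theorem plane_slope_any {C : ℝ} (hC : 1 ≤ C) (hM : MStarLL C) (V : Type) [Finite V]
    (G : SimpleGraph V) (σ : Equiv.Perm G.Dart) (ℓ : Sym2 V → ℝ) (h : V → ℝ)
    (s t : V) (D : ℝ) (hc : G.Connected) (hP : PlaneMap G σ) (hℓ : ∀ e ∈ G.edgeSet, 0 < ℓ e)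
    (h1 : ∀ u v, G.Adj u v → |h u - h v| ≤ ℓ s(u, v))
    (h2 : ∀ u v, G.Adj u v → ℓ s(u, v) ≤ D * |h u - h v|)
    (hlow : ∀ v, v ≠ s → ∃ u, G.Adj v u ∧ h u < h v)
    (hhigh : ∀ v, v ≠ t → ∃ u, G.Adj v u ∧ h v < h u) :
    EmbedsL1 (pathDist G ℓ) (219073 * 32 * C * D * ((ll (Nat.card V) : ℝ) + 1)) := by
  have hne : ∀ u v, G.Adj u v → h u ≠ h v := by
    intro u v ha he
    have h3 := h2 u v ha
    have h4 := hℓ _ ((G.mem_edgeSet).2 ha)
    rw [he, sub_self, abs_zero, mul_zero] at h3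
    linarith
  have hmin : ∀ v, h s ≤ h v := by
    have : Nonempty V := hc.nonempty
    obtain ⟨m, hm⟩ := Finite.exists_min h
    by_cases hms : m = s
    · subst hms; exact hm
    · obtain ⟨u, _, hu⟩ := hlow m hms
      exact absurd (hm u) (not_le.2 hu)
  have hmax : ∀ v, h v ≤ h t := by
    have : Nonempty V := hc.nonempty
    obtain ⟨m, hm⟩ := Finite.exists_max h
    by_cases hms : m = t
    · subst hms; exact hm
    · obtain ⟨u, _, hu⟩ := hhigh m hms
      exact absurd (hm u) (not_le.2 hu)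
  obtain ⟨a, b, hab⟩ := planeMap_adj hc hP
  have hlt : h s < h t := by
    rcases lt_or_gt_of_ne (hne a b hab) with h3 | h3
    · linarith [hmin a, hmax b]
    · linarith [hmin b, hmax a]
  have hU : UpDown G h s t := ⟨hne, hlow, hhigh, hlt⟩
  have hD : 0 ≤ D := by
    by_contra hD
    push Not at hD
    have h3 := h2 a b hab
    have h4 := hℓ _ ((G.mem_edgeSet).2 hab)
    have h5 : D * |h a - h b| ≤ 0 := mul_nonpos_of_nonpos_of_nonneg hD.le (abs_nonneg _)
    linarith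
  have hE := plane_height_any hC hM V G σ h s t hc hP hU
  have e1 : ∀ x y, pathDist G ℓ x y ≤ D * pathDist G (hlen h) x y :=
    R2.H673.pathDist_le_mul hD (fun u v ha => (abs_nonneg _).trans (h1 u v ha)) h2
  have e2 : ∀ x y, pathDist G (hlen h) x y ≤ 1 * pathDist G ℓ x y :=
    R2.H673.pathDist_le_mul zero_le_one (fun u v _ => abs_nonneg _)
      (fun u v ha => by rw [one_mul]; exact h1 u v ha)
  refine R2.H673.embedsL1_scale hD hE e1 (fun x y => ?_)
  have h3 : (0 : ℝ) ≤ 219073 * 32 * C * D * ((ll (Nat.card V) : ℝ) + 1) := by positivity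
  have h4 := mul_le_mul_of_nonneg_left (e2 x y) h3
  rw [one_mul] at h4
  calc D * (219073 * (32 * C * ((ll (Nat.card V) : ℝ) + 1)) * pathDist G (hlen h) x y) =
      219073 * 32 * C * D * ((ll (Nat.card V) : ℝ) + 1) * pathDist G (hlen h) x y := by ring
    _ ≤ _ := h4

/-- every edge on a shortest `s`-`t` path, `s` and `t` anywhere -/
theorem plane_tight_any {C : ℝ} (hC : 1 ≤ C) (hM : MStarLL C) (V : Type) [Finite V]
    (G : SimpleGraph V) (σ : Equiv.Perm G.Dart) (ℓ : Sym2 V → ℝ) (s t : V)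
    (hc : G.Connected) (hP : PlaneMap G σ) (hℓ : ∀ e ∈ G.edgeSet, 0 < ℓ e)
    (htight : ∀ u v, G.Adj u v →
      pathDist G ℓ s u + ℓ s(u, v) + pathDist G ℓ v t = pathDist G ℓ s t ∨
      pathDist G ℓ s v + ℓ s(u, v) + pathDist G ℓ u t = pathDist G ℓ s t) :
    EmbedsL1 (pathDist G ℓ) (219073 * 32 * C * ((ll (Nat.card V) : ℝ) + 1)) := by
  have pos : ∀ u v, G.Adj u v → 0 < ℓ s(u, v) := fun u v ha => hℓ _ (G.mem_edgeSet.2 ha)
  obtain ⟨a, b, hab⟩ := planeMap_adj hc hP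
  have hst : s ≠ t := by
    rintro rfl
    have h1 := pos _ _ hab
    have h2 := pd_nonneg hℓ s a
    have h3 := pd_nonneg hℓ s b
    have h4 := pd_nonneg hℓ a s
    have h5 := pd_nonneg hℓ b s
    have h6 := pd_self hℓ s
    rcases htight _ _ hab with h | h <;> linarith
  obtain ⟨hU, hl⟩ := F0.rowF0 V G ℓ s t hc hst hℓ htight
  have := plane_slope_any hC hM V G σ ℓ (pathDist G ℓ s) s t 1 hc hP hℓ
    (fun u v ha => (hl u v ha).ge) (fun u v ha => by rw [one_mul]; exact (hl u v ha).le)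
    hU.low hU.high
  rwa [mul_one] at this

/-- bags with slopes in `[1/D, 1]` -/
theorem bags_slope {C : ℝ} (hC : 1 ≤ C) (hM : MStarLL C) (V : Type) [Finite V]
    (G : SimpleGraph V) (ℓ : Sym2 V → ℝ) (N : ℕ) (B : ℕ → Set V) (h : V → ℝ) (D : ℝ)
    (hc : G.Connected) (hℓ : ∀ e ∈ G.edgeSet, 0 < ℓ e) (hD : 1 ≤ D)
    (hcov : ∀ v, ∃ i, i ≤ N ∧ v ∈ B i)
    (hE : ∀ u v, G.Adj u v → ∃ i, i ≤ N ∧ u ∈ B i ∧ v ∈ B i)
    (hconv : ∀ i j k, i ≤ j → j ≤ k → k ≤ N → ∀ v, v ∈ B i → v ∈ B k → v ∈ B j)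
    (hh : ∀ i, i ≤ N → ∀ x ∈ B i, ∀ y ∈ B i,
      |h x - h y| ≤ pathDist G ℓ x y ∧ pathDist G ℓ x y ≤ D * |h x - h y|) :
    EmbedsL1 (pathDist G ℓ) (32 * C * D * ((ll N : ℝ) + 1)) := by
  have h1 : (1 : ℝ) ≤ C * ((ll N : ℝ) + 3) := by
    have : (0 : ℝ) ≤ (ll N : ℝ) := Nat.cast_nonneg _
    nlinarith
  obtain ⟨Ω, m, μ, g, hg⟩ := VPRed.graph_embeds_quasi hc hℓ hcov hE hconv h hD
    (fun i hi x hx y hy => (hh i hi x hx y hy).1) (fun i hi x hx y hy => (hh i hi x hx y hy).2)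
    hM h1
  refine ⟨Ω, m, μ, g, fun x y => ⟨(hg x y).1, (hg x y).2.trans ?_⟩⟩
  refine mul_le_mul_of_nonneg_right ?_ (pd_nonneg hℓ x y)
  have h2 : (0 : ℝ) ≤ C * D := by positivity
  have h3 : (0 : ℝ) ≤ C * D * (ll N : ℝ) := mul_nonneg h2 (Nat.cast_nonneg _)
  calc 8 * D * (C * ((ll N : ℝ) + 3)) = 8 * (C * D * (ll N : ℝ)) + 24 * (C * D) := by ring
    _ ≤ 32 * (C * D * (ll N : ℝ)) + 32 * (C * D) := by linarith
    _ = _ := by ring

end Vale.Agent.P235.Red
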