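/-
P235 (helper802): the classes of weighted graphs in the hand-in `PlanarFewMaxima`.  Definitions
only.
-/
import Vale.Agent.P235.H134.Grid.Defs
import Vale.Agent.P235.H206.SurfDefs
import Vale.Agent.P235.R2.RED.Swept

namespace Vale.Agent.P235.Pf

/-- `L` is a set of vertices, `G` has a rotation system of Euler genus `≤ p`, `h` is nonexpansive on
`L`; every vertex of `L` has an edge of slope at least `1/D` downwards which ends in `L`, or is in
`A`, or is on one of the faces of the darts in `M₁`; every vertex of `L` has one upwards, or is in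
`B`, or is on one of the faces of the darts in `M₂`; no face is exceptional in both directions; `A`
and `M₁` have together at most `a` elements, `B` and `M₂` at most `b`; nothing is assumed about the
other vertices and edges -/
def OnSurface {V : Type} (G : SimpleGraph V) (ℓ : Sym2 V → ℝ) (D : ℝ) (L : Set V)
    (p a b : ℕ) : Prop :=
  ∃ (σ : Equiv.Perm G.Dart) (h : V → ℝ) (A B : Finset V) (M₁ M₂ : Finset G.Dart),
    SurfMap p G σ ∧ A.card + M₁.card ≤ a ∧ B.card + M₂.card ≤ b ∧
    (∀ m ∈ M₁, ∀ m' ∈ M₂, ¬ (faceNext σ).SameCycle m m') ∧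
    (∀ u ∈ L, ∀ v ∈ L, |h u - h v| ≤ pathDist G ℓ u v) ∧
    (∀ v ∈ L, (∃ u ∈ L, G.Adj v u ∧ ℓ s(v, u) ≤ D * (h v - h u)) ∨ v ∈ A ∨
      ∃ m ∈ M₁, v ∈ onFace σ m) ∧
    ∀ v ∈ L, (∃ u ∈ L, G.Adj v u ∧ ℓ s(v, u) ≤ D * (h u - h v)) ∨ v ∈ B ∨
      ∃ m ∈ M₂, v ∈ onFace σ m

/-- a block: an edge sum of tight pieces, or a graph of distortion at most `Q` -/
def Block (n : ℕ) (Q : ℝ) (V : Type) (G : SimpleGraph V) (d : V → V → ℝ) : Prop :=
  Swp.EdgeSum (Swp.Tight n) G d ∨
    ∃ ℓ : Sym2 V → ℝ, (∀ u v, G.Adj u v → ℓ s(u, v) = d u v) ∧ EmbedsL1 (pathDist G ℓ) Q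

/-- `X` is the union of at most `s` sets, on each of which the nonexpansive function `u` is
isometric (for example: shortest paths which start at one vertex) -/
def LaneSet {V : Type} (G : SimpleGraph V) (ℓ : Sym2 V → ℝ) (s : ℕ) (X : Set V) : Prop :=
  ∃ (u : V → ℝ) (L : Fin s → Set V), (∀ a b, |u a - u b| ≤ pathDist G ℓ a b) ∧
    (∀ i, ∀ a ∈ L i, ∀ b ∈ L i, pathDist G ℓ a b ≤ |u a - u b|) ∧ X = ⋃ i, L i

/-- for `u` outside `X`, the set `S u` induces a connected subgraph and contains the component of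
`u` in `G - X` -/
def Parts {V : Type} (G : SimpleGraph V) (X : Set V) (S : V → Set V) : Prop :=
  ∀ u ∉ X, compSet G X u ⊆ S u ∧ (G.induce (S u)).Connected

/-- `Rounds Q s r k β G ℓ`: at most `k` rounds which delete a `LaneSet` with at most `s` lanes, and
rounds which delete, from a graph without `K_r` minor, any nonempty set `X` such that the metric
restricted to `X` has distortion at most `B` (`B ≥ 1`, the sum of the numbers `B` is at most `β`),
lead to graphs of distortion at most `Q`.  After each round every component is replaced by a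
connected induced subgraph of `G` which contains it. -/
inductive Rounds (Q : ℝ) (s r : ℕ) :
    ℕ → ℝ → ∀ {V : Type}, SimpleGraph V → (Sym2 V → ℝ) → Prop
  | leaf {k : ℕ} {β : ℝ} {V : Type} {G : SimpleGraph V} {ℓ : Sym2 V → ℝ} :
      EmbedsL1 (pathDist G ℓ) Q → Rounds Q s r k β G ℓ
  | lanes {k : ℕ} {β : ℝ} {V : Type} {G : SimpleGraph V} {ℓ : Sym2 V → ℝ} {X : Set V}
      {S : V → Set V} : X.Nonempty → LaneSet G ℓ s X → Parts G X S →
      (∀ u, u ∉ X → Rounds Q s r k β (G.induce (S u)) (fun e => ℓ (e.map Subtype.val))) →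
      Rounds Q s r (k + 1) β G ℓ
  | set {k : ℕ} {β B : ℝ} {V : Type} {G : SimpleGraph V} {ℓ : Sym2 V → ℝ} {X : Set V}
      {S : V → Set V} : ¬ H134.IsMinor (⊤ : SimpleGraph (Fin r)) G → X.Nonempty → 1 ≤ B → 0 ≤ β →
      EmbedsL1 (fun u v : X => pathDist G ℓ u v) B → Parts G X S →
      (∀ u, u ∉ X → Rounds Q s r k β (G.induce (S u)) (fun e => ℓ (e.map Subtype.val))) →
      Rounds Q s r k (β + B) G ℓ

end Vale.Agent.P235.Pf
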