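/-
P235-M (helper551): the classes of `Swept.lean` embed.
-/
import Vale.Agent.P235.R2.RED.Swept
import Vale.Agent.P235.R2.H582.ShrT
import Vale.Agent.P235.R2.H611.TermFinal
import Vale.Agent.P235.R2.H934.TwoFace
import Vale.Agent.P235.R2.H598.Fin6

namespace Vale.Agent.P235.Swp

open Vale.Agent.P235 Vale.Agent.P235.Red Vale.Agent.P235.R2

variable {V : Type} {G : SimpleGraph V} {ℓ : Sym2 V → ℝ} {C D : ℝ}

theorem LL_one (n : ℕ) : 1 ≤ LL n := by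
  unfold LL
  have : (0 : ℝ) ≤ (Nat.log 2 (Nat.log 2 n + 1) : ℝ) := Nat.cast_nonneg _
  linarith

theorem LL_nonneg (n : ℕ) : 0 ≤ LL n := by have := LL_one n; linarith

theorem LL_eq (n : ℕ) : LL n = (ll n : ℝ) + 1 := rfl

theorem LL_mono {m n : ℕ} (hm : m ≤ n) : LL m ≤ LL n := by
  rw [LL_eq, LL_eq]
  have : (ll m : ℝ) ≤ (ll n : ℝ) := by exact_mod_cast H598.ll_mono hm
  linarith

theorem up (hℓ : ∀ e ∈ G.edgeSet, 0 < ℓ e) {a b : ℝ} (hE : EmbedsL1 (pathDist G ℓ) a)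
    (hab : a ≤ b) : EmbedsL1 (pathDist G ℓ) b := by
  obtain ⟨Ω, m, μ, g, hg⟩ := hE
  exact ⟨Ω, m, μ, g, fun x y => ⟨(hg x y).1, (hg x y).2.trans
    (mul_le_mul_of_nonneg_right hab (Red.pd_nonneg hℓ x y))⟩⟩

theorem upL (hℓ : ∀ e ∈ G.edgeSet, 0 < ℓ e) {L : Set V} {a b : ℝ}
    (hE : EmbedsL1 (fun u v : L => pathDist G ℓ u v) a) (hab : a ≤ b) :
    EmbedsL1 (fun u v : L => pathDist G ℓ u v) b := by
  obtain ⟨Ω, m, μ, g, hg⟩ := hE
  exact ⟨Ω, m, μ, g, fun x y => ⟨(hg x y).1, (hg x y).2.trans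
    (mul_le_mul_of_nonneg_right hab (Red.pd_nonneg hℓ _ _))⟩⟩

theorem LineBags.embeds (hC : 1 ≤ C) (hM : MStarLL C) [Finite V] (hc : G.Connected)
    (hℓ : ∀ e ∈ G.edgeSet, 0 < ℓ e) {N : ℕ} (h : LineBags G (pathDist G ℓ) N) :
    EmbedsL1 (pathDist G ℓ) (32 * C * LL N) := by
  obtain ⟨B, hB, hx⟩ := h
  exact Red.final_bags hC hM V G ℓ N B hc hℓ ⟨hB.vertex, hB.convex, hx⟩ hB.edge

theorem HeightBags.embeds (hC : 1 ≤ C) (hM : MStarLL C) [Finite V] (hc : G.Connected)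
    (hℓ : ∀ e ∈ G.edgeSet, 0 < ℓ e) (hD : 1 ≤ D) {N : ℕ}
    (h : HeightBags G (pathDist G ℓ) D N) : EmbedsL1 (pathDist G ℓ) (32 * C * D * LL N) := by
  obtain ⟨B, h, hB, hx⟩ := h
  exact Red.bags_slope hC hM V G ℓ N B h D hc hℓ hD hB.vertex hB.edge hB.convex hx

theorem TwoEnds.embeds (hC : 1 ≤ C) (hM : MStarLL C) [Finite V] (hc : G.Connected)
    (hℓ : ∀ e ∈ G.edgeSet, 0 < ℓ e) (hD : 1 ≤ D) {L : Set V} (h : TwoEnds G ℓ D L) :
    EmbedsL1 (fun u v : L => pathDist G ℓ u v) (219073 * 864 * C * D * LL (Nat.card V)) := by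
  obtain ⟨σ, h, B₁, B₂, hP, hB, h1, hlow, hhigh⟩ := h
  obtain ⟨ℓ₁, hℓ₁, k1, k2, k3, k4⟩ := H582.FewT.shrT hD
    (⟨hc, hℓ, h1, hlow, hhigh⟩ : Quo.WideL G ℓ h D L B₁ B₂)
  have h3 : (0 : ℝ) ≤ (ll (Nat.card V) : ℝ) := Nat.cast_nonneg _
  have h4 := Quo.terminals hC hM V G σ ℓ₁ h L B₁ B₂ 1 le_rfl hc hP hℓ₁ hB k1
    (fun v hv hvB => by
      obtain ⟨u, hu, h5, hu1, -⟩ := k2 v hv hvB
      exact ⟨u, hu1, hu.symm, by rw [one_mul, Sym2.eq_swap]; exact h5⟩)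
    (fun v hv hvB => by
      obtain ⟨u, hu, h5, -, hu1⟩ := k3 v hv hvB
      exact ⟨u, hu1, hu, by rw [one_mul]; exact h5⟩)
  refine upL hℓ (k4 _ (by positivity) h4) ?_
  have hCD : 0 ≤ C * D := by positivity
  rw [LL_eq]
  calc D * (219073 * 96 * C * 1 * (2 * 1 + 1) * ((ll (Nat.card V) : ℝ) + 3))
      = (219073 * 288) * (C * D) * ((ll (Nat.card V) : ℝ) + 3) := by ring
    _ ≤ (219073 * 288) * (C * D) * (3 * ((ll (Nat.card V) : ℝ) + 1)) :=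
        mul_le_mul_of_nonneg_left (by linarith) (by positivity)
    _ = _ := by ring

theorem TwoEnds.embeds_univ (hC : 1 ≤ C) (hM : MStarLL C) [Finite V] (hc : G.Connected)
    (hℓ : ∀ e ∈ G.edgeSet, 0 < ℓ e) (hD : 1 ≤ D) (h : TwoEnds G ℓ D Set.univ) :
    EmbedsL1 (pathDist G ℓ) (219073 * 288 * C * D * LL (Nat.card V)) := by
  obtain ⟨σ, h, B₁, B₂, hP, hB, h1, hlow, hhigh⟩ := h
  refine up hℓ (W3.plane_ends hC hM V G σ ℓ h B₁ B₂ D hD hc hP hℓ hB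
    (fun u v ha => (h1 u trivial v trivial).trans (pd_adj hℓ ha))
    (fun v hv => ?_) (fun v hv => ?_)) ?_
  · obtain ⟨u, -, hu, h2⟩ := hlow v trivial hv
    exact ⟨u, hu, h2⟩
  · obtain ⟨u, -, hu, h2⟩ := hhigh v trivial hv
    exact ⟨u, hu, h2⟩
  have h3 : (0 : ℝ) ≤ (ll (Nat.card V) : ℝ) := Nat.cast_nonneg _
  have hCD : 0 ≤ C * D := by positivity
  rw [LL_eq]
  calc 219073 * 96 * C * D * ((ll (Nat.card V) : ℝ) + 3)
      = (219073 * 96) * (C * D) * ((ll (Nat.card V) : ℝ) + 3) := by ring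
    _ ≤ (219073 * 96) * (C * D) * (3 * ((ll (Nat.card V) : ℝ) + 1)) :=
        mul_le_mul_of_nonneg_left (by linarith) (by positivity)
    _ = _ := by ring

theorem Tight.leaf2 {n : ℕ} {V : Type} {G : SimpleGraph V} {d : V → V → ℝ} (h : Tight n V G d) :
    H598.Leaf2 n 0 V G d := by
  rcases h with ⟨N, hN, B, hB, hx⟩ | h | h | h
  · exact Or.inl (Or.inl ⟨N, B, hN, ⟨hB.vertex, hB.convex, hx⟩, hB.edge⟩)
  · exact Or.inl (Or.inr h)
  · exact Or.inr (Or.inl h)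
  · exact Or.inr (Or.inr (Or.inl h))

theorem EdgeSum.sumOf {n : ℕ} {V : Type} {G : SimpleGraph V} {d : V → V → ℝ}
    (h : EdgeSum (Tight n) G d) : H598.SumOf (H598.Leaf2 n 0) G d := by
  induction h with
  | base h => exact .base h.leaf2
  | glue h1 h2 h3 h4 _ _ ihA ihB => exact .glue h1 h2 h3 h4 ihA ihB

/-- the classes with a height function -/
def HPiece (n : ℕ) (D : ℝ) (V : Type) (G : SimpleGraph V) (ℓ : Sym2 V → ℝ) : Prop :=
  (∃ N, N ≤ n ∧ HeightBags G (pathDist G ℓ) D N) ∨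
      Nat.card V ≤ n ∧ TwoEnds G ℓ D Set.univ

theorem VertexSum.vSumOf {n : ℕ} {V : Type} {G : SimpleGraph V} {d : V → V → ℝ}
    (h : VertexSum (Piece n D) G d) : H598.VSumOf (fun V G d => H598.SumOf (H598.Leaf2 n 0) G d ∨
        ∃ ℓ : Sym2 V → ℝ, (∀ u v, G.Adj u v → ℓ s(u, v) = d u v) ∧ HPiece n D V G ℓ) G d := by
  induction h with
  | base h =>
    rcases h with h | h
    · exact .base (Or.inl h.sumOf)
    · exact .base (Or.inr h)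
  | glue h2 h3 h4 _ _ ihA ihB => exact .glue h2 h3 h4 ihA ihB

theorem HPiece.embeds (hC : 1 ≤ C) (hM : MStarLL C) {n : ℕ} (hD : 1 ≤ D)
    (V : Type) [Finite V] (G : SimpleGraph V) (ℓ : Sym2 V → ℝ) (hc : G.Connected)
    (hℓ : ∀ e ∈ G.edgeSet, 0 < ℓ e) (h : HPiece n D V G ℓ) :
    EmbedsL1 (pathDist G ℓ) (219073 * 288 * C * D * LL n) := by
  have hCD : 0 ≤ C * D := by positivity
  rcases h with ⟨N, hN, h⟩ | ⟨hcard, h⟩
  · refine up hℓ (h.embeds hC hM hc hℓ hD) ?_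
    have h1 := LL_mono hN
    have h2 := LL_nonneg n
    calc 32 * C * D * LL N = 32 * (C * D) * LL N := by ring
      _ ≤ 219073 * 288 * (C * D) * LL n :=
        mul_le_mul (mul_le_mul_of_nonneg_right (by norm_num) hCD) h1 (LL_nonneg _)
          (by positivity)
      _ = _ := by ring
  · refine up hℓ (h.embeds_univ hC hM hc hℓ hD) ?_
    exact mul_le_mul_of_nonneg_left (LL_mono hcard) (by positivity)

/-- **unlimited sums** -/
theorem sums : ∃ A : ℝ, 1 ≤ A ∧ ∀ (C : ℝ), 1 ≤ C → MStarLL C → ∀ (D : ℝ), 1 ≤ D → ∀ (n : ℕ)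
    (V : Type) [Finite V] (G G' : SimpleGraph V) (ℓ : Sym2 V → ℝ), G.Connected →
      (∀ e ∈ G.edgeSet, 0 < ℓ e) → G ≤ G' → VertexSum (Piece n D) G' (pathDist G ℓ) →
      EmbedsL1 (pathDist G ℓ) (A * C * D * LL n) := by
  obtain ⟨A, hA, h⟩ := H598.sums_tw
  refine ⟨A + 219073 * 288, by linarith, fun C hC hM D hD n V _ G G' ℓ hc hℓ hle hV => ?_⟩
  have hL := LL_nonneg n
  have hE := h C hC hM (219073 * 288 * C * D * LL n) (by positivity) n 0 (HPiece n D)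
    (fun V _ G ℓ hc hℓ h => h.embeds hC hM hD V G ℓ hc hℓ) V G G' ℓ hc hℓ hle hV.vSumOf
  refine up hℓ hE ?_
  rw [← LL_eq]
  have h1 : 0 ≤ A * (C * LL n) := by positivity
  have h2 := le_mul_of_one_le_right h1 hD
  push_cast
  rw [add_zero]
  calc A * (C * LL n) + 219073 * 288 * C * D * LL n
      ≤ A * (C * LL n) * D + 219073 * 288 * C * D * LL n := by linarith
    _ = _ := by ring

end Vale.Agent.P235.Swp
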