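/-
P235 (helper551): the classes of weighted graphs in the hand-in `StPlanarLogLog`.  Definitions only.
-/
import Vale.Agent.P235.H536.PlaneDefs

namespace Vale.Agent.P235.Swept

/-- `LL n = 1 + ⌊log₂ (1 + ⌊log₂ n⌋)⌋` -/
noncomputable def LL (n : ℕ) : ℝ := (Nat.log 2 (Nat.log 2 n + 1) : ℝ) + 1

/-- path decomposition of `G` with bags `B 0, …, B N` (of any size) -/
structure PathDec {V : Type} (G : SimpleGraph V) (N : ℕ) (B : ℕ → Set V) : Prop where
  vertex : ∀ v, ∃ i, i ≤ N ∧ v ∈ B i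
  edge : ∀ u v, G.Adj u v → ∃ i, i ≤ N ∧ u ∈ B i ∧ v ∈ B i
  convex : ∀ i j k, i ≤ j → j ≤ k → k ≤ N → ∀ v, v ∈ B i → v ∈ B k → v ∈ B j

/-- a path decomposition into bags which are isometric to subsets of the real line -/
def LineBags {V : Type} (G : SimpleGraph V) (d : V → V → ℝ) (N : ℕ) : Prop :=
  ∃ B : ℕ → Set V, PathDec G N B ∧
    ∀ i, i ≤ N → ∃ x : V → ℝ, ∀ u ∈ B i, ∀ v ∈ B i, d u v = |x u - x v|

/-- a path decomposition such that one function `h` has slopes in `[1/D, 1]` in all bags -/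
def HeightBags {V : Type} (G : SimpleGraph V) (d : V → V → ℝ) (D : ℝ) (N : ℕ) : Prop :=
  ∃ (B : ℕ → Set V) (h : V → ℝ), PathDec G N B ∧
    ∀ i, i ≤ N → ∀ u ∈ B i, ∀ v ∈ B i, |h u - h v| ≤ d u v ∧ d u v ≤ D * |h u - h v|

/-- two ends: each is one vertex or the set of all vertices of one face; not the same face twice -/
def Ends {V : Type} {G : SimpleGraph V} (σ : Equiv.Perm G.Dart) (B₁ B₂ : Set V) : Prop :=
  ((∃ s, B₁ = {s}) ∨ ∃ d₁, B₁ = onFace σ d₁) ∧ ((∃ t, B₂ = {t}) ∨ ∃ d₂, B₂ = onFace σ d₂) ∧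
    ((∃ s, B₁ = {s}) ∨ (∃ t, B₂ = {t}) ∨
      ∃ d₁ d₂, ¬ (faceNext σ).SameCycle d₁ d₂ ∧ B₁ = onFace σ d₁ ∧ B₂ = onFace σ d₂)

/-- `G` is plane, `h` is nonexpansive, every vertex outside the end `B₁` has an edge of slope at
least `1/D` downwards, every vertex outside the end `B₂` one upwards -/
def TwoEnds {V : Type} (G : SimpleGraph V) (ℓ : Sym2 V → ℝ) (D : ℝ) : Prop :=
  ∃ (σ : Equiv.Perm G.Dart) (h : V → ℝ) (B₁ B₂ : Set V), PlaneMap G σ ∧ Ends σ B₁ B₂ ∧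
    (∀ u v, G.Adj u v → |h u - h v| ≤ ℓ s(u, v)) ∧
    (∀ v, v ∉ B₁ → ∃ u, G.Adj v u ∧ ℓ s(v, u) ≤ D * (h v - h u)) ∧
    ∀ v, v ∉ B₂ → ∃ u, G.Adj v u ∧ ℓ s(v, u) ≤ D * (h u - h v)

/-- `G` is plane, `h` is nonexpansive, every vertex but `s` has an edge of slope at least `1/D`
downwards; at most `g` faces (those of the darts in `M`) contain every vertex without an edge of
slope at least `1/D` upwards and border every edge of slope less than `1/D` -/
def FewFaces {V : Type} (G : SimpleGraph V) (ℓ : Sym2 V → ℝ) (D : ℝ) (g : ℕ) : Prop :=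
  ∃ (σ : Equiv.Perm G.Dart) (h : V → ℝ) (s : V) (M : Finset G.Dart), PlaneMap G σ ∧
    M.Nonempty ∧ M.card ≤ g ∧ (∀ u v, G.Adj u v → |h u - h v| ≤ ℓ s(u, v)) ∧
    (∀ v, v ≠ s → ∃ u, G.Adj v u ∧ ℓ s(v, u) ≤ D * (h v - h u)) ∧
    (∀ v, (∃ u, G.Adj v u ∧ ℓ s(v, u) ≤ D * (h u - h v)) ∨ ∃ m ∈ M, v ∈ onFace σ m) ∧
    ∀ e : G.Dart, ℓ s(e.fst, e.snd) ≤ D * |h e.fst - h e.snd| ∨
      ∃ m ∈ M, (faceNext σ).SameCycle m e ∨ (faceNext σ).SameCycle m e.symm

/-- `L` is a set of vertices of the plane graph `G`, `h` is nonexpansive on `L`, every vertex of `L`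
outside the end `B₁` has an edge of slope at least `1/D` downwards which ends in `L`, every vertex
of `L` outside the end `B₂` one upwards -/
def Terminals {V : Type} (G : SimpleGraph V) (ℓ : Sym2 V → ℝ) (D : ℝ) (L : Set V) : Prop :=
  ∃ (σ : Equiv.Perm G.Dart) (h : V → ℝ) (B₁ B₂ : Set V), PlaneMap G σ ∧ Ends σ B₁ B₂ ∧
    (∀ u ∈ L, ∀ v ∈ L, |h u - h v| ≤ pathDist G ℓ u v) ∧
    (∀ v ∈ L, v ∉ B₁ → ∃ u ∈ L, G.Adj v u ∧ ℓ s(v, u) ≤ D * (h v - h u)) ∧
    ∀ v ∈ L, v ∉ B₂ → ∃ u ∈ L, G.Adj v u ∧ ℓ s(v, u) ≤ D * (h u - h v)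

/-- a tight piece: a path decomposition into bags isometric to subsets of the line, or plane, and
for two vertices `s`, `t` of one face every edge lies on a geodesic from `s` to `t` -/
def Tight (n : ℕ) (V : Type) (G : SimpleGraph V) (d : V → V → ℝ) : Prop :=
  (∃ N, N ≤ n ∧ LineBags G d N) ∨
  (Nat.card V ≤ n ∧ ∃ (σ : Equiv.Perm G.Dart) (f : G.Dart) (s t : V), PlaneMap G σ ∧
    s ∈ onFace σ f ∧ t ∈ onFace σ f ∧ ∀ u v, G.Adj u v →
      d s u + d u v + d v t = d s t ∨ d s v + d v u + d u t = d s t)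

/-- the closure of the class `Q` of pairs (graph, metric) under gluing along an edge, which may be a
virtual one, of length `d s t` -/
inductive EdgeSum (Q : ∀ (V : Type), SimpleGraph V → (V → V → ℝ) → Prop) :
    ∀ {V : Type}, SimpleGraph V → (V → V → ℝ) → Prop
  | base {V : Type} {G : SimpleGraph V} {d : V → V → ℝ} : Q V G d → EdgeSum Q G d
  | glue {V : Type} {G : SimpleGraph V} {d : V → V → ℝ} {A B : Set V} {s t : V} :
      G.Adj s t → A ∪ B = Set.univ → A ∩ B = {s, t} →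
      (∀ a b, a ∉ B → b ∉ A → ¬ G.Adj a b) →
      EdgeSum Q (G.induce A) (fun x y => d x y) → EdgeSum Q (G.induce B) (fun x y => d x y) →
      EdgeSum Q G d

/-- a piece: an edge sum of tight pieces, or a graph with lengths in one of the classes
`HeightBags`, `TwoEnds`, `FewFaces` -/
def Piece (n g : ℕ) (D : ℝ) (V : Type) (G : SimpleGraph V) (d : V → V → ℝ) : Prop :=
  EdgeSum (Tight n) G d ∨ ∃ ℓ : Sym2 V → ℝ, (∀ u v, G.Adj u v → ℓ s(u, v) = d u v) ∧
    ((∃ N, N ≤ n ∧ HeightBags G (pathDist G ℓ) D N) ∨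
      Nat.card V ≤ n ∧ (TwoEnds G ℓ D ∨ FewFaces G ℓ D g))

/-- the closure of the class `P` of pairs (graph, metric) under gluing at a vertex -/
inductive VertexSum (P : ∀ (V : Type), SimpleGraph V → (V → V → ℝ) → Prop) :
    ∀ {V : Type}, SimpleGraph V → (V → V → ℝ) → Prop
  | base {V : Type} {G : SimpleGraph V} {d : V → V → ℝ} : P V G d → VertexSum P G d
  | glue {V : Type} {G : SimpleGraph V} {d : V → V → ℝ} {A B : Set V} {v : V} :
      A ∪ B = Set.univ → A ∩ B = {v} → (∀ a b, a ∉ B → b ∉ A → ¬ G.Adj a b) →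
      VertexSum P (G.induce A) (fun x y => d x y) →
      VertexSum P (G.induce B) (fun x y => d x y) → VertexSum P G d

end Vale.Agent.P235.Swept
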