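/-
P235 (helper802): the classes of weighted graphs in the hand-in `PlanarFewMaxima`.  Definitions
only.
-/
import Vale.Agent.P235.H134.Grid.Defs
import Vale.Agent.P235.H206.SurfDefs
import Vale.Agent.P235.R2.RED.Swept

namespace Vale.Agent.P235.Pg

/-- `L` is a set of vertices, `G` has a rotation system of Euler genus `≤ p`, `h` is nonexpansive on
`L`; every vertex of `L` has an edge of slope at least `1/D` downwards which ends in `L`, or is in
`A`, or is on one of the faces of the darts in `M₁`; every vertex of `L` has one upwards, or is in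
`B`, or is on one of the faces of the darts in `M₂`; no face is exceptional in both directions; `A`
and `M₁` have together at most `a` elements, `B` and `M₂` at most `b`; nothing is assumed about the
other vertices and edges -/
def OnSurface {V : Type} (G : SimpleGraph V) (ℓ : Sym2 V → ℝ) (D : ℝ) (L : Set V)
    (p a b : ℕ) : Prop :=
  ∃ (σ : Equiv.Perm G.Dart) (h : V → ℝ) (A B : Finset V) (M₁ M₂ : Finset G.Dart),
    SurfMap p G σ ∧ A.card + M₁.card ≤ a ∧ B.card + M₂.card ≤ b ∧
    (∀ m ∈ M₁, ∀ m' ∈ M₂, ¬ (faceNext σ).SameCycle m m') ∧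
    (∀ u ∈ L, ∀ v ∈ L, |h u - h v| ≤ pathDist G ℓ u v) ∧
    (∀ v ∈ L, (∃ u ∈ L, G.Adj v u ∧ ℓ s(v, u) ≤ D * (h v - h u)) ∨ v ∈ A ∨
      ∃ m ∈ M₁, v ∈ onFace σ m) ∧
    ∀ v ∈ L, (∃ u ∈ L, G.Adj v u ∧ ℓ s(v, u) ≤ D * (h u - h v)) ∨ v ∈ B ∨
      ∃ m ∈ M₂, v ∈ onFace σ m

/-- `G` is a plane graph, `E` is a union of connected sets, `h` is nonexpansive; every vertex
outside `E` has an edge of slope at least `1/D` downwards which ends outside `E`, or is in `A`, and
has one upwards (which may end in `E`), or is in `A'`; the number of the sets and the sizes of `A`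
and `A'` are together at most `m` -/
def Ridges {V : Type} (G : SimpleGraph V) (ℓ : Sym2 V → ℝ) (D : ℝ) (m : ℕ) (E : Set V) : Prop :=
  ∃ (σ : Equiv.Perm G.Dart) (h : V → ℝ) (A A' : Finset V) (k : ℕ) (L : Fin k → Set V),
    PlaneMap G σ ∧ A.card + A'.card + k ≤ m ∧ E = ⋃ i, L i ∧
    (∀ i, (G.induce (L i)).Preconnected) ∧
    (∀ u v, |h u - h v| ≤ pathDist G ℓ u v) ∧
    (∀ v, v ∉ E → (∃ u, u ∉ E ∧ G.Adj v u ∧ ℓ s(v, u) ≤ D * (h v - h u)) ∨ v ∈ A) ∧
    ∀ v, v ∉ E → (∃ u, G.Adj v u ∧ ℓ s(v, u) ≤ D * (h u - h v)) ∨ v ∈ A'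

/-- `X` is the union of at most `s` sets, on each of which the nonexpansive function `u` is
isometric (for example: shortest paths which start at one vertex) -/
def LaneSet {V : Type} (G : SimpleGraph V) (ℓ : Sym2 V → ℝ) (s : ℕ) (X : Set V) : Prop :=
  ∃ (u : V → ℝ) (L : Fin s → Set V), (∀ a b, |u a - u b| ≤ pathDist G ℓ a b) ∧
    (∀ i, ∀ a ∈ L i, ∀ b ∈ L i, pathDist G ℓ a b ≤ |u a - u b|) ∧ X = ⋃ i, L i

/-- for `u` outside `X`, the set `S u` induces a connected subgraph and contains the component of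
`u` in `G - X` -/
def Parts {V : Type} (G : SimpleGraph V) (X : Set V) (S : V → Set V) : Prop :=
  ∀ u ∉ X, compSet G X u ⊆ S u ∧ (G.induce (S u)).Connected

/-- `Rounds Q s g k j β G ℓ`: at most `k` rounds which delete a `LaneSet` with at most `s` lanes,
at most `j` rounds which delete all vertices of one face of a rotation system of Euler genus at most
`g`, and rounds which delete, from a graph without a `K_r` minor, any nonempty set `X` such that the
metric restricted to `X` has distortion at most `B` (`B ≥ 1`; `r` and `B` may vary, the sum of the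
numbers `(r + 2) ^ 3 * B` is at most `β`), lead to graphs of distortion at most `Q`.  After each
round every component is replaced by a connected induced subgraph of `G` which contains it. -/
inductive Rounds (Q : ℝ) (s g : ℕ) :
    ℕ → ℕ → ℝ → ∀ {V : Type}, SimpleGraph V → (Sym2 V → ℝ) → Prop
  | leaf {k j : ℕ} {β : ℝ} {V : Type} {G : SimpleGraph V} {ℓ : Sym2 V → ℝ} :
      EmbedsL1 (pathDist G ℓ) Q → Rounds Q s g k j β G ℓ
  | lanes {k j : ℕ} {β : ℝ} {V : Type} {G : SimpleGraph V} {ℓ : Sym2 V → ℝ} {X : Set V}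
      {S : V → Set V} : X.Nonempty → LaneSet G ℓ s X → Parts G X S →
      (∀ u, u ∉ X → Rounds Q s g k j β (G.induce (S u)) (fun e => ℓ (e.map Subtype.val))) →
      Rounds Q s g (k + 1) j β G ℓ
  | face {k j : ℕ} {β : ℝ} {V : Type} {G : SimpleGraph V} {ℓ : Sym2 V → ℝ}
      {σ : Equiv.Perm G.Dart} {d : G.Dart} {S : V → Set V} : SurfMap g G σ →
      Parts G (onFace σ d) S →
      (∀ u, u ∉ onFace σ d →
        Rounds Q s g k j β (G.induce (S u)) (fun e => ℓ (e.map Subtype.val))) →
      Rounds Q s g k (j + 1) β G ℓ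
  | set {k j r : ℕ} {β B : ℝ} {V : Type} {G : SimpleGraph V} {ℓ : Sym2 V → ℝ} {X : Set V}
      {S : V → Set V} : ¬ H134.IsMinor (⊤ : SimpleGraph (Fin r)) G → X.Nonempty → 1 ≤ B → 0 ≤ β →
      EmbedsL1 (fun u v : X => pathDist G ℓ u v) B → Parts G X S →
      (∀ u, u ∉ X → Rounds Q s g k j β (G.induce (S u)) (fun e => ℓ (e.map Subtype.val))) →
      Rounds Q s g k j (β + ((r : ℝ) + 2) ^ 3 * B) G ℓ

end Vale.Agent.P235.Pg
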