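/-
P235 (helper551): the classes of weighted graphs in the hand-in `StPlanarLogLog`, version 6.
Definitions only.
-/
import Vale.Agent.P235.R2.H37T.Classes

namespace Vale.Agent.P235.Cov

/-- the set `L` is covered by `m + 1` sets `M 0, …, M m`, each of them in `TwoEnds` (with its own
height function, ends and plane embedding of `G`) -/
def Covered {V : Type} (G : SimpleGraph V) (ℓ : Sym2 V → ℝ) (D : ℝ) (m : ℕ) (L : Set V) : Prop :=
  ∃ M : ℕ → Set V, (∀ v ∈ L, ∃ i, i ≤ m ∧ v ∈ M i) ∧ ∀ i, i ≤ m → Swp.TwoEnds G ℓ D (M i)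

/-- a piece: an edge sum of tight pieces, or a graph with lengths in `TreeBags`, or a graph with
lengths whose vertices are `Covered` -/
def Piece (n q m : ℕ) (D : ℝ) (V : Type) (G : SimpleGraph V) (d : V → V → ℝ) : Prop :=
  Swp.EdgeSum (SwpT.Tight n q) G d ∨ ∃ ℓ : Sym2 V → ℝ, (∀ u v, G.Adj u v → ℓ s(u, v) = d u v) ∧
    ((∃ N, N ≤ n ∧ H37T.TreeBags G (pathDist G ℓ) D N q) ∨
      Nat.card V ≤ n ∧ Covered G ℓ D m Set.univ)

end Vale.Agent.P235.Cov
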