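/-
P235 (helper551): unions of sets of vertices of a plane graph, from the random retractions of
helper582 and others; the classes of `Cover.lean` embed.
-/
import Vale.Agent.P235.R2.RED.Cover
import Vale.Agent.P235.R2.H37T.ClassesE
import Vale.Agent.P235.R2.H582.KprStage
import Vale.Agent.P235.R2.H611.KprR1
import Vale.Agent.P235.R2.H680.RowPot
import Vale.Agent.P235.R2.H907.RowCount
import Vale.Agent.P235.R2.H90.KprDiam
import Vale.Agent.P235.R2.H598.RowKPR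
import Vale.Agent.P235.R2.H341.Retr7
import Vale.Agent.P235.R2.H721.UniLog
import Vale.Agent.P235.R2.H721.KprPad
import Vale.Agent.P235.R2.H718.Var
import Vale.Agent.P235.R2.H347.UniZ1
import Vale.Agent.P235.R2.H611.UniZ2
import Vale.Agent.P235.R2.H341.One

namespace Vale.Agent.P235.Cov

open SimpleGraph Vale.Agent.P235 Vale.Agent.P235.Red Vale.Agent.P235.R2 Vale.Agent.P235.Swp

/-- random retractions of a plane graph onto any nonempty set of vertices -/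
theorem retr : Kpr.RowRetr :=
  Kpr.rowRetr Kpr.rowCount (Kpr.rowKPR Kpr.rowPot Kpr.rowCount
    (Kpr.rowDiam Kpr.rowMinor Kpr.rowStage))

variable {V : Type} {G : SimpleGraph V} {ℓ : Sym2 V → ℝ}

theorem walk_bound {F : V → V → ℝ} (hF : IsL1 F) {K : ℝ}
    (h : ∀ u v, G.Adj u v → F u v ≤ K * ℓ s(u, v)) :
    ∀ {x y : V} (w : G.Walk x y), F x y ≤ K * (w.edges.map ℓ).sum
  | _, _, .nil => by simp [hF.self]
  | x, y, .cons (v := z) ha w => by
    have h1 := hF.tri x z y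
    have h2 := h x z ha
    have h3 := walk_bound hF h w
    rw [Walk.edges_cons, List.map_cons, List.sum_cons, mul_add]
    linarith

/-- one set -/
theorem one_set [Finite V] (hc : G.Connected) (hP : ∃ σ : Equiv.Perm G.Dart, PlaneMap G σ)
    (hℓ : ∀ e ∈ G.edgeSet, 0 < ℓ e) {X : Set V} (hX : X.Nonempty) {B : ℝ} (hB : 0 ≤ B)
    (hE : EmbedsL1 (fun u v : X => pathDist G ℓ u v) B) :
    ∃ F : V → V → ℝ, IsL1 F ∧ (∀ x y, F x y ≤ (5000 * B + 1) * pathDist G ℓ x y) ∧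
      ∀ x ∈ X, ∀ y, pathDist G ℓ x y ≤ 8 * F x y := by
  classical
  have hd := pathDist_isMet hc hℓ
  obtain ⟨ν, hν⟩ := exists_near (X := X) hc hℓ hX
  obtain ⟨κ, hκ, w, π, hw, hw1, hπ1, hπ3, hπ4⟩ := retr V G ℓ hc hP hℓ X ν hν
  obtain ⟨ρ, hρL, hρ1, hρ2, -⟩ := hE.toL1S
  have hρI : IsL1 ρ := hρL.isL1
  have hF1 : IsL1 fun x y => ∑ i, w i * ρ ⟨π i x, hπ1 i x⟩ ⟨π i y, hπ1 i y⟩ :=
    IsL1.sum Finset.univ (fun i x y => w i * ρ ⟨π i x, hπ1 i x⟩ ⟨π i y, hπ1 i y⟩)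
      fun i _ => (hρI.comap (fun x => (⟨π i x, hπ1 i x⟩ : X))).smul (hw i)
  have hub : ∀ x y, ∑ i, w i * ρ ⟨π i x, hπ1 i x⟩ ⟨π i y, hπ1 i y⟩ ≤
      5000 * B * pathDist G ℓ x y := by
    intro x y
    obtain ⟨p, hp⟩ := exists_geodesic hc hℓ x y
    rw [← hp]
    refine walk_bound hF1 (fun u v huv => ?_) p
    have h1 : ∑ i, w i * ρ ⟨π i u, hπ1 i u⟩ ⟨π i v, hπ1 i v⟩ ≤
        ∑ i, B * (w i * pathDist G ℓ (π i u) (π i v)) := by
      refine Finset.sum_le_sum fun i _ => ?_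
      have h2 := mul_le_mul_of_nonneg_left (hρ2 ⟨π i u, hπ1 i u⟩ ⟨π i v, hπ1 i v⟩) (hw i)
      calc w i * ρ ⟨π i u, hπ1 i u⟩ ⟨π i v, hπ1 i v⟩
          ≤ w i * (B * pathDist G ℓ (π i u) (π i v)) := h2
        _ = _ := by ring
    rw [← Finset.mul_sum] at h1
    have h2 := mul_le_mul_of_nonneg_left (hπ3 u v huv) hB
    calc _ ≤ B * ∑ i, w i * pathDist G ℓ (π i u) (π i v) := h1
      _ ≤ B * (5000 * ℓ s(u, v)) := h2
      _ = _ := by ring
  refine ⟨_, hF1.add (isL1_line fun x => pathDist G ℓ x (ν x)), fun x y => ?_, fun x hx y => ?_⟩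
  · have h1 := hub x y
    have h2 := hν.lip hc hℓ x y
    have h3 := hν.lip hc hℓ y x
    rw [hd.symm y x] at h3
    have h4 : |pathDist G ℓ x (ν x) - pathDist G ℓ y (ν y)| ≤ pathDist G ℓ x y :=
      abs_sub_le_iff.2 ⟨by linarith, by linarith⟩
    show _ + |pathDist G ℓ x (ν x) - pathDist G ℓ y (ν y)| ≤ _
    rw [add_mul, one_mul]
    exact add_le_add h1 h4
  · have hx0 : pathDist G ℓ x (ν x) = 0 := by rw [hν.self x hx, hd.self]
    have hn : 0 ≤ ∑ i, w i * ρ ⟨π i x, hπ1 i x⟩ ⟨π i y, hπ1 i y⟩ := hF1.nonneg x y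
    have hy0 := hd.nonneg y (ν y)
    show pathDist G ℓ x y ≤ 8 * (_ + |pathDist G ℓ x (ν x) - pathDist G ℓ y (ν y)|)
    rw [hx0, zero_sub, abs_neg, abs_of_nonneg hy0]
    rcases le_total (pathDist G ℓ x y) (8 * pathDist G ℓ y (ν y)) with h | h
    · linarith
    · have h1 : ∀ i, 5 / 8 * pathDist G ℓ x y ≤ ρ ⟨π i x, hπ1 i x⟩ ⟨π i y, hπ1 i y⟩ := by
        intro i
        have h2 : pathDist G ℓ (π i x) (π i y) ≤ ρ ⟨π i x, hπ1 i x⟩ ⟨π i y, hπ1 i y⟩ :=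
          hρ1 ⟨π i x, hπ1 i x⟩ ⟨π i y, hπ1 i y⟩
        have h3 := hd.tri x (π i x) y
        have h4 := hd.tri (π i x) (π i y) y
        rw [hd.symm (π i y) y] at h4
        have h5 := hπ4 i x
        have h6 := hπ4 i y
        linarith
      have h2 : ∑ i, w i * (5 / 8 * pathDist G ℓ x y) ≤
          ∑ i, w i * ρ ⟨π i x, hπ1 i x⟩ ⟨π i y, hπ1 i y⟩ :=
        Finset.sum_le_sum fun i _ => mul_le_mul_of_nonneg_left (h1 i) (hw i)
      rw [← Finset.sum_mul, hw1, one_mul] at h2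
      have h3 := hd.nonneg x y
      linarith

/-- **Unions.**  In a plane graph a union of `q + 1` sets whose metrics embed with distortion `B`
embeds with distortion `≤ 8 (q + 1) (5000 B + 1)`. -/
theorem union [Finite V] (hc : G.Connected) (hℓ : ∀ e ∈ G.edgeSet, 0 < ℓ e) {B : ℝ}
    (hB : 0 ≤ B) {q : ℕ} {M : ℕ → Set V} (hP : ∃ σ : Equiv.Perm G.Dart, PlaneMap G σ)
    (hM : ∀ i, i ≤ q → EmbedsL1 (fun u v : M i => pathDist G ℓ u v) B) {L : Set V}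
    (hL : ∀ v ∈ L, ∃ i, i ≤ q ∧ v ∈ M i) :
    EmbedsL1 (fun u v : L => pathDist G ℓ u v) (8 * ((q : ℝ) + 1) * (5000 * B + 1)) := by
  classical
  have hd := pathDist_isMet hc hℓ
  have key : ∀ i : ℕ, ∃ F : V → V → ℝ, IsL1 F ∧
      (∀ x y, F x y ≤ (5000 * B + 1) * pathDist G ℓ x y) ∧
      (i ≤ q → ∀ x ∈ M i, ∀ y, pathDist G ℓ x y ≤ 8 * F x y) := by
    intro i
    by_cases hi : i ≤ q ∧ (M i).Nonempty
    · obtain ⟨F, h1, h2, h3⟩ := one_set hc hP hℓ hi.2 hB (hM i hi.1)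
      exact ⟨F, h1, h2, fun _ => h3⟩
    · refine ⟨fun _ _ => 0, IsL1.zero, fun x y => ?_, fun hiq x hx => absurd ⟨hiq, ⟨x, hx⟩⟩ hi⟩
      exact mul_nonneg (by linarith) (hd.nonneg _ _)
  choose F hF1 hF2 hF3 using key
  have hS : IsL1 fun x y : L => 8 * ∑ i ∈ Finset.range (q + 1), F i x y :=
    ((IsL1.sum (Finset.range (q + 1)) (fun i (x y : V) => F i x y) fun i _ => hF1 i).comap
      (fun x : L => (x : V))).smul (by norm_num)
  refine hS.embeds (fun x y => ?_) (fun x y => ?_)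
  · obtain ⟨i, hi, hx⟩ := hL x x.2
    have h1 := hF3 i hi x hx y
    have h2 : F i (x : V) y ≤ ∑ i ∈ Finset.range (q + 1), F i x y :=
      Finset.single_le_sum (f := fun i => F i (x : V) y) (fun j _ => (hF1 j).nonneg _ _)
        (Finset.mem_range.2 (by omega))
    show pathDist G ℓ x y ≤ 8 * ∑ i ∈ Finset.range (q + 1), F i x y
    linarith
  · have h1 : ∑ i ∈ Finset.range (q + 1), F i (x : V) y ≤
        ∑ i ∈ Finset.range (q + 1), (5000 * B + 1) * pathDist G ℓ x y :=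
      Finset.sum_le_sum fun i _ => hF2 i x y
    rw [Finset.sum_const, Finset.card_range, nsmul_eq_mul] at h1
    push_cast at h1
    show 8 * ∑ i ∈ Finset.range (q + 1), F i x y ≤
      8 * ((q : ℝ) + 1) * (5000 * B + 1) * pathDist G ℓ x y
    calc 8 * ∑ i ∈ Finset.range (q + 1), F i (x : V) y
        ≤ 8 * (((q : ℝ) + 1) * ((5000 * B + 1) * pathDist G ℓ x y)) :=
          mul_le_mul_of_nonneg_left h1 (by norm_num)
      _ = _ := by ring

/-- the union of `m` sets costs a factor `log (m + 2)` (helper721) -/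
theorem unionLog : Kpr.RowUnion :=
  H721.rowUnion retr (Kpr.rowVar (H721.rowPad Kpr.rowPot Kpr.rowCount
    (Kpr.rowDiam Kpr.rowMinor Kpr.rowStage))) H347K.rowRec Kpr.rowFirst Kpr.rowOne

variable {C D : ℝ}

/-- `log (m + 3) ≤ 2 log (m + 2)` -/
theorem log_succ (m : ℕ) : Real.log (((m + 1 : ℕ) : ℝ) + 2) ≤ 2 * Real.log ((m : ℝ) + 2) := by
  have hm : (0 : ℝ) ≤ (m : ℝ) := Nat.cast_nonneg _
  have h1 : ((m + 1 : ℕ) : ℝ) + 2 ≤ ((m : ℝ) + 2) ^ 2 := by push_cast; nlinarith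
  calc Real.log (((m + 1 : ℕ) : ℝ) + 2) ≤ Real.log (((m : ℝ) + 2) ^ 2) :=
        Real.log_le_log (by positivity) h1
    _ = 2 * Real.log ((m : ℝ) + 2) := by rw [Real.log_pow]; norm_num

theorem log_half (m : ℕ) : 1 / 2 ≤ Real.log ((m : ℝ) + 2) := by
  have hm : (0 : ℝ) ≤ (m : ℝ) := Nat.cast_nonneg _
  have h1 : Real.log 2 ≤ Real.log ((m : ℝ) + 2) := Real.log_le_log (by norm_num) (by linarith)
  have h2 := Real.log_two_gt_d9
  linarith

/-- **Plane graphs, a set covered by `m + 1` sets with two ends.** -/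
theorem covered : ∃ A : ℝ, 1 ≤ A ∧ ∀ (C : ℝ), 1 ≤ C → MStarLL C → ∀ (D : ℝ), 1 ≤ D →
    ∀ (V : Type) [Finite V] (G : SimpleGraph V) (ℓ : Sym2 V → ℝ), G.Connected →
      (∀ e ∈ G.edgeSet, 0 < ℓ e) → ∀ (m : ℕ) (L : Set V), Covered G ℓ D m L →
      EmbedsL1 (fun u v : L => pathDist G ℓ u v)
        (A * C * D * Real.log ((m : ℝ) + 2) * LL (Nat.card V)) := by
  obtain ⟨A, hA, hU⟩ := unionLog
  refine ⟨A * (219073 * 864) * 2, by nlinarith, ?_⟩
  intro C hC hM D hD V _ G ℓ hc hℓ m L h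
  obtain ⟨M, hM1, hM2⟩ := h
  have hL1 := LL_one (Nat.card V)
  have hCD : 1 ≤ C * D := by nlinarith
  have hP : ∃ σ : Equiv.Perm G.Dart, PlaneMap G σ := by
    obtain ⟨σ, -, -, -, hP, -⟩ := hM2 0 (Nat.zero_le m)
    exact ⟨σ, hP⟩
  have hB1 : 1 ≤ 219073 * 864 * C * D * LL (Nat.card V) := by
    have h1 : 1 ≤ C * D * LL (Nat.card V) := by nlinarith
    calc (1 : ℝ) ≤ 219073 * 864 * (C * D * LL (Nat.card V)) := by linarith
      _ = _ := by ring
  have h1 := hU V G ℓ hc hP hℓ (m + 1) (fun i : Fin (m + 1) => M i)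
    (219073 * 864 * C * D * LL (Nat.card V)) hB1
    (fun i => (hM2 i (Nat.lt_succ_iff.1 i.2)).embeds hC hM hc hℓ hD)
  have hLs : ∀ x : L, (x : V) ∈ ⋃ i : Fin (m + 1), M i := fun x => by
    obtain ⟨i, hi, hx⟩ := hM1 x x.2
    exact Set.mem_iUnion.2 ⟨⟨i, Nat.lt_succ_of_le hi⟩, hx⟩
  have h2 : EmbedsL1 (fun u v : L => pathDist G ℓ u v) (A *
      (219073 * 864 * C * D * LL (Nat.card V)) * Real.log (((m + 1 : ℕ) : ℝ) + 2)) := by
    obtain ⟨Ω, mΩ, μ, g, hg⟩ := h1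
    exact ⟨Ω, mΩ, μ, fun x => g ⟨x, hLs x⟩, fun x y => hg ⟨x, hLs x⟩ ⟨y, hLs y⟩⟩
  refine upL hℓ h2 ?_
  have h3 : 0 ≤ A * (219073 * 864 * C * D * LL (Nat.card V)) :=
    mul_nonneg (by linarith) (by linarith)
  calc A * (219073 * 864 * C * D * LL (Nat.card V)) * Real.log (((m + 1 : ℕ) : ℝ) + 2)
      ≤ A * (219073 * 864 * C * D * LL (Nat.card V)) * (2 * Real.log ((m : ℝ) + 2)) :=
        mul_le_mul_of_nonneg_left (log_succ m) h3
    _ = _ := by ring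

/-- the classes with a height function -/
def HPiece (n q m : ℕ) (D : ℝ) (V : Type) (G : SimpleGraph V) (ℓ : Sym2 V → ℝ) : Prop :=
  (∃ N, N ≤ n ∧ H37T.TreeBags G (pathDist G ℓ) D N q) ∨
      Nat.card V ≤ n ∧ Covered G ℓ D m Set.univ

theorem embeds_univ {K : ℝ}
    (h : EmbedsL1 (fun u v : (Set.univ : Set V) => pathDist G ℓ u v) K) :
    EmbedsL1 (pathDist G ℓ) K := by
  obtain ⟨Ω, m, μ, g, hg⟩ := h
  exact ⟨Ω, m, μ, fun x => g ⟨x, trivial⟩, fun x y => hg ⟨x, trivial⟩ ⟨y, trivial⟩⟩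

theorem q_le (q m : ℕ) : (q : ℝ) + 1 ≤ 2 * ((q : ℝ) + Real.log ((m : ℝ) + 2)) := by
  have hq : (0 : ℝ) ≤ (q : ℝ) := Nat.cast_nonneg _
  have := log_half m
  linarith

theorem hPiece : ∃ A : ℝ, 1 ≤ A ∧ ∀ (C : ℝ), 1 ≤ C → MStarLL C → ∀ (D : ℝ), 1 ≤ D →
    ∀ (n q m : ℕ) (V : Type) [Finite V] (G : SimpleGraph V) (ℓ : Sym2 V → ℝ), G.Connected →
      (∀ e ∈ G.edgeSet, 0 < ℓ e) → HPiece n q m D V G ℓ →
      EmbedsL1 (pathDist G ℓ) (A * C * D * ((q : ℝ) + Real.log ((m : ℝ) + 2)) * LL n) := by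
  obtain ⟨A, hA, hU⟩ := covered
  refine ⟨A + 192, by linarith, ?_⟩
  intro C hC hM D hD n q m V _ G ℓ hc hℓ h
  have hCD : 0 ≤ C * D := by positivity
  have hq : (0 : ℝ) ≤ (q : ℝ) := Nat.cast_nonneg _
  have hlog := log_half m
  have hL := LL_nonneg n
  have hX : 0 ≤ C * D * ((q : ℝ) + Real.log ((m : ℝ) + 2)) * LL n :=
    mul_nonneg (mul_nonneg hCD (by linarith)) hL
  rcases h with ⟨N, hN, h⟩ | ⟨hcard, h⟩
  · refine up hℓ (SwpT.TreeBags.embeds hC hM hc hℓ hD h) ?_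
    have h1 := LL_mono hN
    have h2 : 0 ≤ 96 * (C * D * ((q : ℝ) + 1)) := by positivity
    calc 96 * C * D * (q + 1) * LL N = 96 * (C * D * ((q : ℝ) + 1)) * LL N := by ring
      _ ≤ 96 * (C * D * ((q : ℝ) + 1)) * LL n := mul_le_mul_of_nonneg_left h1 h2
      _ = 96 * (C * D * LL n) * ((q : ℝ) + 1) := by ring
      _ ≤ 96 * (C * D * LL n) * (2 * ((q : ℝ) + Real.log ((m : ℝ) + 2))) :=
        mul_le_mul_of_nonneg_left (q_le q m) (by positivity)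
      _ ≤ (A + 192) * (C * D * ((q : ℝ) + Real.log ((m : ℝ) + 2)) * LL n) := by nlinarith
      _ = _ := by ring
  · refine up hℓ (embeds_univ (hU C hC hM D hD V G ℓ hc hℓ m _ h)) ?_
    have h1 := LL_mono hcard
    have h2 : 0 ≤ A * C * D * Real.log ((m : ℝ) + 2) :=
      mul_nonneg (mul_nonneg (mul_nonneg (by linarith) (by linarith)) (by linarith))
        (by linarith)
    have h3 : 0 ≤ A * (C * D * (q : ℝ) * LL n) :=
      mul_nonneg (by linarith) (mul_nonneg (mul_nonneg hCD hq) hL)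
    calc A * C * D * Real.log ((m : ℝ) + 2) * LL (Nat.card V)
        ≤ A * C * D * Real.log ((m : ℝ) + 2) * LL n := mul_le_mul_of_nonneg_left h1 h2
      _ ≤ A * C * D * Real.log ((m : ℝ) + 2) * LL n + A * (C * D * (q : ℝ) * LL n) := by
        linarith
      _ = A * (C * D * ((q : ℝ) + Real.log ((m : ℝ) + 2)) * LL n) := by ring
      _ ≤ (A + 192) * (C * D * ((q : ℝ) + Real.log ((m : ℝ) + 2)) * LL n) := by nlinarith
      _ = _ := by ring

theorem VertexSum.vSumOf {n q m : ℕ} {V : Type} {G : SimpleGraph V} {d : V → V → ℝ}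
    (h : Swp.VertexSum (Piece n q m D) G d) :
    H598.VSumOf (fun V G d => H598.SumOf (H37T.Leaf3 n q) G d ∨
        ∃ ℓ : Sym2 V → ℝ, (∀ u v, G.Adj u v → ℓ s(u, v) = d u v) ∧ HPiece n q m D V G ℓ) G d := by
  induction h with
  | base h =>
    rcases h with h | h
    · exact .base (Or.inl (SwpT.EdgeSum.sumOf h))
    · exact .base (Or.inr h)
  | glue h2 h3 h4 _ _ ihA ihB => exact .glue h2 h3 h4 ihA ihB

/-- **unlimited sums** -/
theorem sums : ∃ A : ℝ, 1 ≤ A ∧ ∀ (C : ℝ), 1 ≤ C → MStarLL C → ∀ (D : ℝ), 1 ≤ D →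
    ∀ (n q m : ℕ) (V : Type) [Finite V] (G G' : SimpleGraph V) (ℓ : Sym2 V → ℝ), G.Connected →
      (∀ e ∈ G.edgeSet, 0 < ℓ e) → G ≤ G' → Swp.VertexSum (Piece n q m D) G' (pathDist G ℓ) →
      EmbedsL1 (pathDist G ℓ) (A * C * D * ((q : ℝ) + Real.log ((m : ℝ) + 2)) * LL n) := by
  obtain ⟨A, hA, h⟩ := H37T.sums_tree
  obtain ⟨A', hA', hH⟩ := hPiece
  refine ⟨2 * A + A', by linarith, fun C hC hM D hD n q m V _ G G' ℓ hc hℓ hle hV => ?_⟩
  have hL := LL_nonneg n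
  have hq : (0 : ℝ) ≤ (q : ℝ) := Nat.cast_nonneg _
  have hlog := log_half m
  have hK : 0 ≤ A' * C * D * ((q : ℝ) + Real.log ((m : ℝ) + 2)) * LL n :=
    mul_nonneg (mul_nonneg (mul_nonneg (mul_nonneg (by linarith) (by linarith)) (by linarith))
      (by linarith)) hL
  have hE := h C hC hM _ hK n q (HPiece n q m D)
    (fun V _ G ℓ hc hℓ h => hH C hC hM D hD n q m V G ℓ hc hℓ h) V G G' ℓ hc hℓ hle
    (VertexSum.vSumOf hV)
  refine up hℓ hE ?_
  rw [← LL_eq]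
  have h1 : 0 ≤ A * (C * ((q : ℝ) + 1) * LL n) :=
    mul_nonneg (by linarith) (mul_nonneg (mul_nonneg (by linarith) (by linarith)) hL)
  have h2 := le_mul_of_one_le_right h1 hD
  have h3 : 0 ≤ A * C * D * LL n :=
    mul_nonneg (mul_nonneg (mul_nonneg (by linarith) (by linarith)) (by linarith)) hL
  have h4 := mul_le_mul_of_nonneg_left (q_le q m) h3
  calc A * (C * (q + 1) * LL n) + A' * C * D * ((q : ℝ) + Real.log ((m : ℝ) + 2)) * LL n
      ≤ A * (C * (q + 1) * LL n) * D +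
        A' * C * D * ((q : ℝ) + Real.log ((m : ℝ) + 2)) * LL n := by linarith
    _ = A * C * D * LL n * ((q : ℝ) + 1) +
        A' * C * D * ((q : ℝ) + Real.log ((m : ℝ) + 2)) * LL n := by ring
    _ ≤ A * C * D * LL n * (2 * ((q : ℝ) + Real.log ((m : ℝ) + 2))) +
        A' * C * D * ((q : ℝ) + Real.log ((m : ℝ) + 2)) * LL n := by linarith
    _ = _ := by ring

end Vale.Agent.P235.Cov
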