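/-
P235-M (helper551): the classes of `Classes.lean` embed.
-/
import Vale.Agent.P235.R2.RED.Classes
import Vale.Agent.P235.R2.H582.Wide
import Vale.Agent.P235.R2.H341.X6
import Vale.Agent.P235.R2.H907.Sub
import Vale.Agent.P235.R2.H598.Fin4
import Vale.Agent.P235.R2.H611.TermFinal

namespace Vale.Agent.P235.Swept

open Vale.Agent.P235 Vale.Agent.P235.Red Vale.Agent.P235.R2 Vale.Agent.P235.R2.H598

variable {V : Type} {G : SimpleGraph V} {ℓ : Sym2 V → ℝ} {C D : ℝ}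

theorem rowMQ : H341W.RowMQ := H341W.rowMQ_of H907.rowSub

theorem LL_nonneg (n : ℕ) : 0 ≤ LL n := by unfold LL; positivity

theorem LL_eq (n : ℕ) : LL n = (ll n : ℝ) + 1 := rfl

theorem log_nonneg' (g : ℕ) : 0 ≤ Real.log ((g : ℝ) + 2) :=
  Real.log_nonneg (by have := (Nat.cast_nonneg g : (0 : ℝ) ≤ g); linarith)

theorem up (hℓ : ∀ e ∈ G.edgeSet, 0 < ℓ e) {a b : ℝ} (hE : EmbedsL1 (pathDist G ℓ) a)
    (hab : a ≤ b) : EmbedsL1 (pathDist G ℓ) b := by
  obtain ⟨Ω, m, μ, g, hg⟩ := hE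
  exact ⟨Ω, m, μ, g, fun x y => ⟨(hg x y).1, (hg x y).2.trans
    (mul_le_mul_of_nonneg_right hab (Red.pd_nonneg hℓ x y))⟩⟩

theorem LineBags.embeds (hC : 1 ≤ C) (hM : MStarLL C) [Finite V] (hc : G.Connected)
    (hℓ : ∀ e ∈ G.edgeSet, 0 < ℓ e) {N : ℕ} (h : LineBags G (pathDist G ℓ) N) :
    EmbedsL1 (pathDist G ℓ) (32 * C * LL N) := by
  obtain ⟨B, hB, hx⟩ := h
  exact Red.final_bags hC hM V G ℓ N B hc hℓ ⟨hB.vertex, hB.convex, hx⟩ hB.edge

theorem HeightBags.embeds (hC : 1 ≤ C) (hM : MStarLL C) [Finite V] (hc : G.Connected)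
    (hℓ : ∀ e ∈ G.edgeSet, 0 < ℓ e) (hD : 1 ≤ D) {N : ℕ}
    (h : HeightBags G (pathDist G ℓ) D N) : EmbedsL1 (pathDist G ℓ) (32 * C * D * LL N) := by
  obtain ⟨B, h, hB, hx⟩ := h
  exact Red.bags_slope hC hM V G ℓ N B h D hc hℓ hD hB.vertex hB.edge hB.convex hx

theorem TwoEnds.embeds (hC : 1 ≤ C) (hM : MStarLL C) [Finite V] (hc : G.Connected)
    (hℓ : ∀ e ∈ G.edgeSet, 0 < ℓ e) (hD : 1 ≤ D) (h : TwoEnds G ℓ D) :
    EmbedsL1 (pathDist G ℓ) (219073 * 288 * C * D * LL (Nat.card V)) := by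
  obtain ⟨σ, h, B₁, B₂, hP, hB, h1, hlow, hhigh⟩ := h
  refine up hℓ (W3.plane_ends hC hM V G σ ℓ h B₁ B₂ D hD hc hP hℓ hB h1 hlow hhigh) ?_
  have h3 : (0 : ℝ) ≤ (ll (Nat.card V) : ℝ) := Nat.cast_nonneg _
  have hCD : 0 ≤ C * D := by positivity
  rw [LL_eq]
  calc 219073 * 96 * C * D * ((ll (Nat.card V) : ℝ) + 3)
      = (219073 * 96) * (C * D) * ((ll (Nat.card V) : ℝ) + 3) := by ring
    _ ≤ (219073 * 96) * (C * D) * (3 * ((ll (Nat.card V) : ℝ) + 1)) :=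
        mul_le_mul_of_nonneg_left (by linarith) (by positivity)
    _ = _ := by ring

theorem FewFaces.embeds (hC : 1 ≤ C) (hM : MStarLL C) [Finite V] (hc : G.Connected)
    (hℓ : ∀ e ∈ G.edgeSet, 0 < ℓ e) (hD : 1 ≤ D) {g : ℕ} (h : FewFaces G ℓ D g) :
    EmbedsL1 (pathDist G ℓ)
      (315500000000000 * C * D * (LL (Nat.card V) + Real.log ((g : ℝ) + 2))) := by
  obtain ⟨σ, h, s, M, hP, hne, hg, h1, hlow, hhigh, hsl⟩ := h
  refine up hℓ (H582.Wd.plane_faces_wide hC hM rowMQ V G σ ℓ h s D hD M hne hc hP hℓ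
    h1 hlow hhigh hsl) ?_
  have h3 : Real.log ((M.card : ℝ) + 2) ≤ Real.log ((g : ℝ) + 2) := by
    refine Real.log_le_log (by positivity) ?_
    have : (M.card : ℝ) ≤ (g : ℝ) := by exact_mod_cast hg
    linarith
  rw [LL_eq]
  exact mul_le_mul_of_nonneg_left (by linarith) (by positivity)

theorem Terminals.embeds (hC : 1 ≤ C) (hM : MStarLL C) [Finite V] (hc : G.Connected)
    (hℓ : ∀ e ∈ G.edgeSet, 0 < ℓ e) (hD : 1 ≤ D) {L : Set V} (h : Terminals G ℓ D L) :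
    EmbedsL1 (fun u v : L => pathDist G ℓ u v)
      (219073 * 864 * C * D ^ 2 * LL (Nat.card V)) := by
  obtain ⟨σ, h, B₁, B₂, hP, hB, h1, hlow, hhigh⟩ := h
  obtain ⟨Ω, m, μ, f, hf⟩ := Quo.terminals hC hM V G σ ℓ h L B₁ B₂ D hD hc hP hℓ hB h1 hlow hhigh
  refine ⟨Ω, m, μ, f, fun x y => ⟨(hf x y).1, (hf x y).2.trans
    (mul_le_mul_of_nonneg_right ?_ (pd_nonneg hℓ _ _))⟩⟩
  have h3 : (0 : ℝ) ≤ (ll (Nat.card V) : ℝ) := Nat.cast_nonneg _
  have hCD : 0 ≤ C * D := by positivity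
  rw [LL_eq]
  calc 219073 * 96 * C * D * (2 * D + 1) * ((ll (Nat.card V) : ℝ) + 3)
      = (219073 * 96) * (C * D) * ((2 * D + 1) * ((ll (Nat.card V) : ℝ) + 3)) := by ring
    _ ≤ (219073 * 96) * (C * D) * ((3 * D) * (3 * ((ll (Nat.card V) : ℝ) + 1))) :=
        mul_le_mul_of_nonneg_left (mul_le_mul (by linarith) (by linarith) (by linarith)
          (by linarith)) (by positivity)
    _ = _ := by ring

theorem Tight.leaf {n : ℕ} {V : Type} {G : SimpleGraph V} {d : V → V → ℝ} (h : Tight n V G d) :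
    Leaf n V G d := by
  rcases h with ⟨N, hN, B, hB, hx⟩ | h
  · exact Or.inl ⟨N, B, hN, ⟨hB.vertex, hB.convex, hx⟩, hB.edge⟩
  · exact Or.inr h

theorem EdgeSum.sumOf {n : ℕ} {V : Type} {G : SimpleGraph V} {d : V → V → ℝ}
    (h : EdgeSum (Tight n) G d) : SumOf (Leaf n) G d := by
  induction h with
  | base h => exact .base h.leaf
  | glue h1 h2 h3 h4 _ _ ihA ihB => exact .glue h1 h2 h3 h4 ihA ihB

/-- the classes with a height function -/
def HPiece (n g : ℕ) (D : ℝ) (V : Type) (G : SimpleGraph V) (ℓ : Sym2 V → ℝ) : Prop :=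
  (∃ N, N ≤ n ∧ HeightBags G (pathDist G ℓ) D N) ∨
    Nat.card V ≤ n ∧ (TwoEnds G ℓ D ∨ FewFaces G ℓ D g)

theorem VertexSum.vSumOf {n g : ℕ} {V : Type} {G : SimpleGraph V} {d : V → V → ℝ}
    (h : VertexSum (Piece n g D) G d) : VSumOf (Block n (HPiece n g D)) G d := by
  induction h with
  | base h =>
    rcases h with h | h
    · exact .base (Or.inl h.sumOf)
    · exact .base (Or.inr h)
  | glue h2 h3 h4 _ _ ihA ihB => exact .glue h2 h3 h4 ihA ihB

theorem HPiece.embeds (hC : 1 ≤ C) (hM : MStarLL C) {n g : ℕ} (hD : 1 ≤ D)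
    (V : Type) [Finite V] (G : SimpleGraph V) (ℓ : Sym2 V → ℝ) (hc : G.Connected)
    (hℓ : ∀ e ∈ G.edgeSet, 0 < ℓ e) (h : HPiece n g D V G ℓ) :
    EmbedsL1 (pathDist G ℓ)
      (315500000000000 * C * D * (LL n + Real.log ((g : ℝ) + 2))) := by
  have hCD : 0 ≤ C * D := by positivity
  have hlog := log_nonneg' g
  have mono : ∀ {m : ℕ}, m ≤ n → LL m ≤ LL n := fun {m} hm => by
    rw [LL_eq, LL_eq]
    have : (ll m : ℝ) ≤ (ll n : ℝ) := by exact_mod_cast ll_mono hm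
    linarith
  rcases h with ⟨N, hN, h⟩ | ⟨hcard, h | h⟩
  · refine up hℓ (h.embeds hC hM hc hℓ hD) ?_
    have h1 := mono hN
    calc 32 * C * D * LL N = 32 * (C * D) * LL N := by ring
      _ ≤ 315500000000000 * (C * D) * (LL n + Real.log ((g : ℝ) + 2)) :=
        mul_le_mul (mul_le_mul_of_nonneg_right (by norm_num) hCD) (by linarith) (LL_nonneg _)
          (by positivity)
      _ = _ := by ring
  · refine up hℓ (h.embeds hC hM hc hℓ hD) ?_
    have h1 := mono hcard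
    calc 219073 * 288 * C * D * LL (Nat.card V) = 219073 * 288 * (C * D) * LL (Nat.card V) := by
          ring
      _ ≤ 315500000000000 * (C * D) * (LL n + Real.log ((g : ℝ) + 2)) :=
        mul_le_mul (mul_le_mul_of_nonneg_right (by norm_num) hCD) (by linarith) (LL_nonneg _)
          (by positivity)
      _ = _ := by ring
  · refine up hℓ (h.embeds hC hM hc hℓ hD) ?_
    have h1 := mono hcard
    exact mul_le_mul_of_nonneg_left (by linarith) (by positivity)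

theorem VertexSum.embeds (hC : 1 ≤ C) (hM : MStarLL C) [Finite V] (hc : G.Connected)
    (hℓ : ∀ e ∈ G.edgeSet, 0 < ℓ e) (hD : 1 ≤ D) {n g : ℕ} {G' : SimpleGraph V} (hle : G ≤ G')
    (h : VertexSum (Piece n g D) G' (pathDist G ℓ)) :
    EmbedsL1 (pathDist G ℓ)
      (315600000000000 * C * D * (LL n + Real.log ((g : ℝ) + 2))) := by
  have hlg := log_nonneg' g
  have hLL := LL_nonneg n
  refine up hℓ (sums_graph_class
    (K := 315500000000000 * C * D * (LL n + Real.log ((g : ℝ) + 2))) hC hM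
    (by positivity) n (HPiece n g D)
    (fun V _ G ℓ hc hℓ h => h.embeds hC hM hD V G ℓ hc hℓ) V G G' ℓ hc hℓ hle h.vSumOf) ?_
  rw [← LL_eq]
  have h1 : 0 ≤ 29952000 * (9 * C) * LL n := by positivity
  have h2 := le_mul_of_one_le_right h1 hD
  have h3 : (0 : ℝ) ≤ C * D * LL n := by positivity
  have h4 : (0 : ℝ) ≤ C * D * Real.log ((g : ℝ) + 2) := by positivity
  nlinarith

end Vale.Agent.P235.Swept
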